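import Vale.Agent.H28.P356.Defs

namespace Vale.Agent.P356.A1

/-- `log x ≥ 1 - 1/x + (x-1)^2/(2 D x)` on `(0, D]`. -/
theorem aux {D x : ℝ} (hD : 1 ≤ D) (h0 : 0 < x) (h1 : x ≤ D) :
    (x - 1) + (x - 1) ^ 2 / (2 * D) ≤ x * Real.log x := by
  have hD0 : 0 < D := by linarith
  set f : ℝ → ℝ := fun t => t * Real.log t - ((t - 1) + (t - 1) ^ 2 / (2 * D)) with hf
  have hd : ∀ t : ℝ, 0 < t → HasDerivAt f (Real.log t - (t - 1) / D) t := by
    intro t ht
    have h1 : HasDerivAt (fun t : ℝ => t * Real.log t) (1 * Real.log t + t * t⁻¹) t :=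
      (hasDerivAt_id t).mul (Real.hasDerivAt_log ht.ne')
    have a : HasDerivAt (fun t : ℝ => t - 1) 1 t := (hasDerivAt_id t).sub_const 1
    have b : HasDerivAt (fun t : ℝ => (t - 1) ^ 2 / (2 * D)) ((2 * (t - 1)) / (2 * D)) t := by
      have := (a.pow 2).div_const (2 * D)
      refine this.congr_deriv ?_
      norm_num
    have h3 : HasDerivAt f (1 * Real.log t + t * t⁻¹ - (1 + (2 * (t - 1)) / (2 * D))) t :=
      h1.sub (a.add b)
    refine h3.congr_deriv ?_
    field_simp
    ring
  have hf1 : f 1 = 0 := by simp [hf]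
  suffices h : 0 ≤ f x by
    rw [hf] at h
    simp only at h
    linarith
  rcases le_total 1 x with hx | hx
  · have hm : MonotoneOn f (Set.Icc 1 x) := by
      apply monotoneOn_of_deriv_nonneg (convex_Icc 1 x)
      · intro t ht
        exact (hd t (by linarith [ht.1])).continuousAt.continuousWithinAt
      · intro t ht
        rw [interior_Icc] at ht
        exact (hd t (by linarith [ht.1])).differentiableAt.differentiableWithinAt
      · intro t ht
        rw [interior_Icc] at ht
        have ht0 : 0 < t := by linarith [ht.1]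
        rw [(hd t ht0).deriv]
        have h5 := Real.one_sub_inv_le_log_of_pos ht0
        have h6 : (t - 1) / D ≤ (t - 1) / t :=
          div_le_div_of_nonneg_left (by linarith [ht.1]) ht0 (by linarith [ht.2])
        have h7 : (t - 1) / t = 1 - t⁻¹ := by field_simp
        linarith
    have := hm (Set.left_mem_Icc.2 hx) (Set.right_mem_Icc.2 hx) hx
    rw [hf1] at this
    exact this
  · have hm : AntitoneOn f (Set.Icc x 1) := by
      apply antitoneOn_of_deriv_nonpos (convex_Icc x 1)
      · intro t ht
        exact (hd t (by linarith [ht.1])).continuousAt.continuousWithinAt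
      · intro t ht
        rw [interior_Icc] at ht
        exact (hd t (by linarith [ht.1])).differentiableAt.differentiableWithinAt
      · intro t ht
        rw [interior_Icc] at ht
        have ht0 : 0 < t := by linarith [ht.1]
        rw [(hd t ht0).deriv]
        have h5 := Real.log_le_sub_one_of_pos ht0
        have h6 : t - 1 ≤ (t - 1) / D := by
          rw [le_div_iff₀ hD0]
          nlinarith [ht.2]
        linarith
    have := hm (Set.left_mem_Icc.2 hx) (Set.right_mem_Icc.2 hx) hx
    rw [hf1] at this
    exact this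

theorem negMulLog_quad {l D : ℝ} (hD : 1 ≤ D) (h0 : 0 ≤ l) (h1 : l ≤ 1) :
    Real.negMulLog l ≤ l * Real.log D - (l - 1 / D) - (l - 1 / D) ^ 2 / 2 := by
  have hD0 : 0 < D := by linarith
  rcases h0.eq_or_lt with h | h
  · subst h
    simp only [Real.negMulLog_zero, zero_mul, zero_sub, neg_neg]
    have : 1 / D ≤ 1 := by rw [div_le_one hD0]; exact hD
    have h2 : 0 < 1 / D := by positivity
    nlinarith
  · have hx0 : 0 < l * D := by positivity
    have hx1 : l * D ≤ D := by nlinarith
    have h3 := aux hD hx0 hx1
    rw [Real.log_mul h.ne' hD0.ne'] at h3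
    unfold Real.negMulLog
    have e : l * D * (Real.log l + Real.log D) = D * (l * (Real.log l + Real.log D)) := by ring
    rw [e] at h3
    have e2 : (l * D - 1) + (l * D - 1) ^ 2 / (2 * D) =
        D * ((l - 1 / D) + (l - 1 / D) ^ 2 / 2) := by
      field_simp
    rw [e2] at h3
    have h4 := le_of_mul_le_mul_left h3 hD0
    linarith

end Vale.Agent.P356.A1
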