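import Vale.Agent.H28.P356.Defs
import Vale.Agent.H28.Upper

/-! # P356 row A2 (from A1) -/

namespace Vale.Agent.P356.A2

open Finset Matrix Vale.Agent.P356
open scoped ComplexOrder

/-- the statement of row A1 -/
def NegMulLogQuad : Prop := ∀ {l D : ℝ} (_ : 1 ≤ D) (_ : 0 ≤ l) (_ : l ≤ 1),
    Real.negMulLog l ≤ l * Real.log D - (l - 1 / D) - (l - 1 / D) ^ 2 / 2

theorem vN_eq {ι : Type*} [Fintype ι] [DecidableEq ι] {M : Matrix ι ι ℂ} (hA : M.IsHermitian) :
    vN M = ∑ i, Real.negMulLog (hA.eigenvalues i) := by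
  unfold vN
  rw [hA.roots_charpoly_eq_eigenvalues, Multiset.map_map]
  simp

theorem hs_eq {ι : Type*} [Fintype ι] [DecidableEq ι] {M : Matrix ι ι ℂ} (hA : M.IsHermitian)
    (c : ℝ) : ∑ s, ∑ t, ‖M s t - if s = t then (c : ℂ) else 0‖ ^ 2
      = ∑ i, (hA.eigenvalues i - c) ^ 2 := by
  obtain ⟨U, h1, h2, h3⟩ := Vale.Agent.H28.spectral' hA
  obtain ⟨N, hN⟩ : ∃ N : Matrix ι ι ℂ, N = M - (c : ℂ) • (1 : Matrix ι ι ℂ) := ⟨_, rfl⟩
  have hNe : ∀ s t, M s t - (if s = t then (c : ℂ) else 0) = N s t := by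
    intro s t
    rw [hN, Matrix.sub_apply, Matrix.smul_apply, Matrix.one_apply]
    by_cases h : s = t <;> simp [h]
  have hNU : N = U * diagonal (fun i => ((hA.eigenvalues i - c : ℝ) : ℂ)) * Uᴴ := by
    have e : (diagonal (fun i => ((hA.eigenvalues i - c : ℝ) : ℂ)) : Matrix ι ι ℂ)
        = diagonal (fun i => (hA.eigenvalues i : ℂ)) - (c : ℂ) • 1 := by
      ext i j
      by_cases hij : i = j
      · subst hij; simp
      · simp [hij]
    rw [hN, e, mul_sub, sub_mul, Matrix.mul_smul, Matrix.smul_mul, mul_one, h2, ← h3]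
  have hNH : Nᴴ = U * diagonal (fun i => ((hA.eigenvalues i - c : ℝ) : ℂ)) * Uᴴ := by
    rw [hNU, conjTranspose_mul, conjTranspose_mul, conjTranspose_conjTranspose,
      diagonal_conjTranspose, mul_assoc]
    congr 2
    congr 1
    funext i
    simp
  have htr : (N * Nᴴ).trace = ((∑ i, (hA.eigenvalues i - c) ^ 2 : ℝ) : ℂ) := by
    rw [hNH, hNU]
    have e : U * diagonal (fun i => ((hA.eigenvalues i - c : ℝ) : ℂ)) * Uᴴ *
        (U * diagonal (fun i => ((hA.eigenvalues i - c : ℝ) : ℂ)) * Uᴴ)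
        = U * (diagonal (fun i => ((hA.eigenvalues i - c : ℝ) : ℂ)) *
          diagonal (fun i => ((hA.eigenvalues i - c : ℝ) : ℂ))) * Uᴴ := by
      calc _ = U * diagonal (fun i => ((hA.eigenvalues i - c : ℝ) : ℂ)) * (Uᴴ * U) *
          diagonal (fun i => ((hA.eigenvalues i - c : ℝ) : ℂ)) * Uᴴ := by
            simp only [mul_assoc]
        _ = _ := by rw [h1, mul_one, mul_assoc U]
    rw [e, trace_mul_comm, ← mul_assoc, h1, one_mul, diagonal_mul_diagonal, trace_diagonal]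
    push_cast
    refine Finset.sum_congr rfl fun i _ => ?_
    ring
  have htr2 : (N * Nᴴ).trace = ((∑ s, ∑ t, ‖N s t‖ ^ 2 : ℝ) : ℂ) := by
    rw [Matrix.trace]
    push_cast
    refine Finset.sum_congr rfl fun s _ => ?_
    rw [Matrix.diag_apply, Matrix.mul_apply]
    refine Finset.sum_congr rfl fun t _ => ?_
    rw [conjTranspose_apply]
    have := Complex.mul_conj (N s t)
    rw [Complex.normSq_eq_norm_sq] at this
    rw [show star (N s t) = (starRingEnd ℂ) (N s t) from rfl, this]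
    push_cast
    rfl
  simp only [hNe]
  rw [htr] at htr2
  exact_mod_cast htr2.symm

theorem vN_le (hA1 : NegMulLogQuad) {ι : Type*} [Fintype ι] [DecidableEq ι] [Nonempty ι]
    (M : Matrix ι ι ℂ) (hM : M.PosSemidef) (ht : M.trace = 1) :
    vN M ≤ Real.log (Fintype.card ι) -
      (∑ s, ∑ t, ‖M s t - if s = t then ((Fintype.card ι : ℂ))⁻¹ else 0‖ ^ 2) / 2 := by
  have hA := hM.isHermitian
  obtain ⟨D, hD⟩ : ∃ D : ℝ, D = (Fintype.card ι : ℝ) := ⟨_, rfl⟩
  have hD1 : 1 ≤ D := by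
    rw [hD]
    exact_mod_cast Nat.one_le_iff_ne_zero.2 Fintype.card_ne_zero
  have hc : ((Fintype.card ι : ℂ))⁻¹ = ((1 / D : ℝ) : ℂ) := by
    rw [hD]; push_cast; rw [one_div]
  rw [hc, hs_eq hA (1 / D), vN_eq hA, ← hD]
  have hl0 : ∀ i, 0 ≤ hA.eigenvalues i := hM.eigenvalues_nonneg
  have hsum : ∑ i, hA.eigenvalues i = 1 := by
    have h := hA.trace_eq_sum_eigenvalues
    rw [ht] at h
    apply Complex.ofReal_injective
    rw [Complex.ofReal_one, h]
    push_cast
    rfl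
  have hl1 : ∀ i, hA.eigenvalues i ≤ 1 := fun i => by
    rw [← hsum]
    exact Finset.single_le_sum (fun j _ => hl0 j) (Finset.mem_univ i)
  have h1 : ∑ i, Real.negMulLog (hA.eigenvalues i) ≤
      ∑ i, (hA.eigenvalues i * Real.log D - (hA.eigenvalues i - 1 / D) -
        (hA.eigenvalues i - 1 / D) ^ 2 / 2) :=
    Finset.sum_le_sum fun i _ => hA1 hD1 (hl0 i) (hl1 i)
  refine h1.trans (le_of_eq ?_)
  rw [Finset.sum_sub_distrib, Finset.sum_sub_distrib, ← Finset.sum_mul, ← Finset.sum_div,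
    Finset.sum_sub_distrib, hsum]
  have h2 : ∑ _i : ι, 1 / D = 1 := by
    rw [Finset.sum_const, Finset.card_univ, nsmul_eq_mul, ← hD]
    field_simp
  rw [h2]
  ring

end Vale.Agent.P356.A2
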