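import Vale.Agent.H28.P356.Defs

/-! # P356 row B0 -/

namespace Vale.Agent.P356.B0

open Finset Matrix Vale.Agent.P356
open scoped ComplexOrder

/-- the matrix of coefficients of `Ω` with respect to the cut `A`, complement of `A` -/
noncomputable def coef {q L : ℕ} (Ω : Vec q L) (A : Finset (Site L)) :
    Matrix (A → Fin q) ({x : Site L // x ∉ A} → Fin q) ℂ :=
  Matrix.of fun s r => Ω (glue A s r)

theorem rdm_eq {q L : ℕ} (Ω : Vec q L) (A : Finset (Site L)) :
    rdm Ω A = coef Ω A * (coef Ω A)ᴴ := by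
  ext s t
  rw [Matrix.mul_apply]
  simp only [rdm, coef, Matrix.of_apply, Matrix.conjTranspose_apply]

theorem rdm_posSemidef {q L : ℕ} (Ω : Vec q L) (A : Finset (Site L)) :
    (rdm Ω A).PosSemidef := by
  rw [rdm_eq]
  exact Matrix.posSemidef_self_mul_conjTranspose _

theorem sum_glue {q L : ℕ} {E : Type*} [AddCommMonoid E] (A : Finset (Site L)) (f : Conf q L → E) :
    ∑ s : A → Fin q, ∑ r : {x : Site L // x ∉ A} → Fin q, f (glue A s r) = ∑ c, f c := by
  classical
  rw [← Fintype.sum_prod_type']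
  exact Fintype.sum_equiv (Equiv.piEquivPiSubtypeProd (fun x => x ∈ A) (fun _ => Fin q)).symm
    (fun z => f (glue A z.1 z.2)) f (fun z => rfl)

theorem rdm_trace {q L : ℕ} (Ω : Vec q L) (A : Finset (Site L)) (h : nsq Ω = 1) :
    (rdm Ω A).trace = 1 := by
  have h1 : (rdm Ω A).trace = ∑ s : A → Fin q, ∑ r : {x : Site L // x ∉ A} → Fin q,
      (fun c : Conf q L => Ω c * star (Ω c)) (glue A s r) := by
    simp only [Matrix.trace, Matrix.diag, rdm, Matrix.of_apply]
  rw [h1, sum_glue A (fun c => Ω c * star (Ω c))]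
  have h2 : ∀ c : Conf q L, Ω c * star (Ω c) = ((‖Ω c‖ ^ 2 : ℝ) : ℂ) := by
    intro c
    have := Complex.mul_conj (Ω c)
    rw [Complex.normSq_eq_norm_sq] at this
    exact this
  simp only [h2]
  rw [← Complex.ofReal_sum]
  have h3 : ∑ c, ‖Ω c‖ ^ 2 = nsq Ω := rfl
  rw [h3, h]
  rfl

end Vale.Agent.P356.B0
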