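import Vale.Agent.H28.P356.Defs
import Vale.Agent.H28.Upper

/-! # P356: row B1 (subadditivity of the von Neumann entropy) -/

namespace Vale.Agent.P356.B1

open Finset Matrix
open scoped ComplexOrder Kronecker
open Vale.Agent.P356

/-- classical subadditivity -/
theorem shannon_sub {X Y : Type*} [Fintype X] [Fintype Y] (p : X → Y → ℝ) (d : X → ℝ) (e : Y → ℝ)
    (hp : ∀ a b, 0 ≤ p a b) (hd : ∀ a, ∑ b, p a b = d a) (he : ∀ b, ∑ a, p a b = e b)
    (hd1 : ∑ a, d a = 1) :
    ∑ a, ∑ b, Real.negMulLog (p a b) ≤ ∑ a, Real.negMulLog (d a) + ∑ b, Real.negMulLog (e b) := by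
  have hpd : ∀ a b, p a b ≤ d a := fun a b => by
    rw [← hd a]; exact Finset.single_le_sum (fun b _ => hp a b) (Finset.mem_univ b)
  have hpe : ∀ a b, p a b ≤ e b := fun a b => by
    rw [← he b]; exact Finset.single_le_sum (f := fun a => p a b) (fun a _ => hp a b)
      (Finset.mem_univ a)
  have he1 : ∑ b, e b = 1 := by
    rw [← hd1]
    simp only [← hd, ← he]
    exact Finset.sum_comm
  have hpt : ∀ a b, Real.negMulLog (p a b) ≤
      - (p a b * Real.log (d a)) - p a b * Real.log (e b) + (d a * e b - p a b) := by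
    intro a b
    rcases (hp a b).eq_or_lt with h0 | h0
    · rw [← h0]
      simp only [Real.negMulLog_zero, zero_mul, sub_zero, neg_zero, zero_add]
      exact mul_nonneg ((hp a b).trans (hpd a b)) ((hp a b).trans (hpe a b))
    · have h1 : 0 < d a := h0.trans_le (hpd a b)
      have h2 : 0 < e b := h0.trans_le (hpe a b)
      have h3 := Real.log_le_sub_one_of_pos (x := d a * e b / p a b) (by positivity)
      rw [Real.log_div (by positivity) h0.ne', Real.log_mul h1.ne' h2.ne'] at h3
      have h4 := mul_le_mul_of_nonneg_left h3 h0.le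
      have h5 : p a b * (d a * e b / p a b - 1) = d a * e b - p a b := by
        field_simp
      rw [h5] at h4
      unfold Real.negMulLog
      nlinarith
  have hs : ∑ a, ∑ b, Real.negMulLog (p a b) ≤ ∑ a, ∑ b,
      (- (p a b * Real.log (d a)) - p a b * Real.log (e b) + (d a * e b - p a b)) :=
    Finset.sum_le_sum fun a _ => Finset.sum_le_sum fun b _ => hpt a b
  have e1 : ∑ a, ∑ b, p a b * Real.log (d a) = ∑ a, d a * Real.log (d a) := by
    refine Finset.sum_congr rfl fun a _ => ?_
    rw [← Finset.sum_mul, hd]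
  have e2 : ∑ a, ∑ b, p a b * Real.log (e b) = ∑ b, e b * Real.log (e b) := by
    rw [Finset.sum_comm]
    refine Finset.sum_congr rfl fun b _ => ?_
    rw [← Finset.sum_mul, he]
  have e3 : ∑ a, ∑ b, d a * e b = 1 := by
    rw [← Finset.sum_mul_sum, hd1, he1, one_mul]
  have e4 : ∑ a, ∑ b, p a b = 1 := by
    simp only [hd, hd1]
  simp only [Finset.sum_add_distrib, Finset.sum_sub_distrib, Finset.sum_neg_distrib] at hs
  rw [e1, e2, e3, e4] at hs
  have e5 : ∑ a, Real.negMulLog (d a) = - ∑ a, d a * Real.log (d a) := by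
    simp only [Real.negMulLog, neg_mul, Finset.sum_neg_distrib]
  have e6 : ∑ b, Real.negMulLog (e b) = - ∑ b, e b * Real.log (e b) := by
    simp only [Real.negMulLog, neg_mul, Finset.sum_neg_distrib]
  rw [e5, e6]
  linarith

theorem vN_prod_le {X Y : Type*} [Fintype X] [DecidableEq X] [Fintype Y] [DecidableEq Y]
    (M : Matrix (X × Y) (X × Y) ℂ) (hM : M.PosSemidef) (ht : M.trace = 1) :
    vN M ≤ vN (Matrix.of fun x x' => ∑ y, M (x, y) (x', y)) +
      vN (Matrix.of fun y y' => ∑ x, M (x, y) (x, y')) := by
  set MX : Matrix X X ℂ := Matrix.of fun x x' => ∑ y, M (x, y) (x', y) with hMX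
  set MY : Matrix Y Y ℂ := Matrix.of fun y y' => ∑ x, M (x, y) (x, y') with hMY
  have hH : ∀ i j, star (M j i) = M i j := fun i j => hM.isHermitian.apply i j
  have hX : MX.IsHermitian := by
    ext i j
    simp only [hMX, conjTranspose_apply, of_apply, star_sum, hH]
  have hY : MY.IsHermitian := by
    ext i j
    simp only [hMY, conjTranspose_apply, of_apply, star_sum, hH]
  obtain ⟨U, hU1, hU2, hU3⟩ := H28.spectral' hX
  obtain ⟨V, hV1, hV2, hV3⟩ := H28.spectral' hY
  set d := hX.eigenvalues with hd
  set e := hY.eigenvalues with he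
  set W : Matrix (X × Y) (X × Y) ℂ := U ⊗ₖ V with hW
  have hWH : Wᴴ = Uᴴ ⊗ₖ Vᴴ := by rw [hW, conjTranspose_kronecker]
  have hW2 : W * Wᴴ = 1 := by
    rw [hWH, hW, ← mul_kronecker_mul, hU2, hV2, one_kronecker_one]
  set N := Wᴴ * M * W with hN
  have hNp : N.PosSemidef := by
    have := hM.mul_mul_conjTranspose_same Wᴴ
    rwa [conjTranspose_conjTranspose] at this
  have hent : vN M = vN N := (H28.ent_conj (A := M) hW2).symm
  have hle : vN N ≤ ∑ x, Real.negMulLog (N x x).re := H28.ent_le_diag hNp
  -- diagonal entries of `N`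
  have hNd : ∀ a b, N (a, b) (a, b) = ∑ x', ∑ y', ∑ x, ∑ y,
      star (U x a) * star (V y b) * M (x, y) (x', y') * (U x' a * V y' b) := by
    intro a b
    rw [hN, Matrix.mul_apply, Fintype.sum_prod_type]
    refine Finset.sum_congr rfl fun x' _ => Finset.sum_congr rfl fun y' _ => ?_
    rw [Matrix.mul_apply, Fintype.sum_prod_type, Finset.sum_mul]
    refine Finset.sum_congr rfl fun x _ => ?_
    rw [Finset.sum_mul]
    refine Finset.sum_congr rfl fun y _ => ?_
    rw [hWH, hW]
    simp only [kroneckerMap_apply, conjTranspose_apply]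
  have hVs : ∀ y' y, ∑ b, V y' b * star (V y b) = if y' = y then 1 else 0 := by
    intro y' y
    have := congrFun (congrFun hV2 y') y
    rw [Matrix.mul_apply] at this
    simpa [conjTranspose_apply, Matrix.one_apply] using this
  have hUs : ∀ y' y, ∑ b, U y' b * star (U y b) = if y' = y then 1 else 0 := by
    intro y' y
    have := congrFun (congrFun hU2 y') y
    rw [Matrix.mul_apply] at this
    simpa [conjTranspose_apply, Matrix.one_apply] using this
  have hUd : Uᴴ * MX * U = diagonal (fun i => (d i : ℂ)) := by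
    rw [hU3, ← mul_assoc, ← mul_assoc, hU1, one_mul, mul_assoc, hU1, mul_one]
  have hVd : Vᴴ * MY * V = diagonal (fun i => (e i : ℂ)) := by
    rw [hV3, ← mul_assoc, ← mul_assoc, hV1, one_mul, mul_assoc, hV1, mul_one]
  have hsb : ∀ a, ∑ b, N (a, b) (a, b) = (d a : ℂ) := by
    intro a
    have h1 : (Uᴴ * MX * U) a a = (d a : ℂ) := by rw [hUd, diagonal_apply_eq]
    rw [← h1, Matrix.mul_apply]
    simp only [hNd, Matrix.mul_apply, hMX, of_apply, conjTranspose_apply, Finset.sum_mul,
      Finset.mul_sum]
    rw [Finset.sum_comm]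
    refine Finset.sum_congr rfl fun x' _ => ?_
    rw [Finset.sum_comm]
    have : ∀ y', ∑ b, ∑ x, ∑ y, star (U x a) * star (V y b) * M (x, y) (x', y') *
        (U x' a * V y' b) = ∑ x, star (U x a) * M (x, y') (x', y') * U x' a := by
      intro y'
      rw [Finset.sum_comm]
      refine Finset.sum_congr rfl fun x _ => ?_
      rw [Finset.sum_comm]
      have h2 : ∀ y, ∑ b, star (U x a) * star (V y b) * M (x, y) (x', y') *
        (U x' a * V y' b) = (star (U x a) * M (x, y) (x', y') * U x' a) *
          (if y' = y then 1 else 0) := by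
        intro y
        rw [← hVs y' y, Finset.mul_sum]
        refine Finset.sum_congr rfl fun b _ => ?_
        ring
      simp only [h2]
      simp
    simp only [this]
    rw [Finset.sum_comm]
  have hsa : ∀ b, ∑ a, N (a, b) (a, b) = (e b : ℂ) := by
    intro b
    have h1 : (Vᴴ * MY * V) b b = (e b : ℂ) := by rw [hVd, diagonal_apply_eq]
    rw [← h1, Matrix.mul_apply]
    simp only [hNd, Matrix.mul_apply, hMY, of_apply, conjTranspose_apply, Finset.sum_mul,
      Finset.mul_sum]
    have : ∀ x' y', ∑ a, ∑ x, ∑ y, star (U x a) * star (V y b) * M (x, y) (x', y') *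
        (U x' a * V y' b) = ∑ y, star (V y b) * M (x', y) (x', y') * V y' b := by
      intro x' y'
      have h2 : ∀ x y, ∑ a, star (U x a) * star (V y b) * M (x, y) (x', y') *
        (U x' a * V y' b) = (star (V y b) * M (x, y) (x', y') * V y' b) *
          (if x' = x then 1 else 0) := by
        intro x y
        rw [← hUs x' x, Finset.mul_sum]
        refine Finset.sum_congr rfl fun a _ => ?_
        ring
      rw [Finset.sum_comm]
      have h3 : ∀ x, ∑ a, ∑ y, star (U x a) * star (V y b) * M (x, y) (x', y') *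
        (U x' a * V y' b) = ∑ y, (star (V y b) * M (x, y) (x', y') * V y' b) *
          (if x' = x then 1 else 0) := by
        intro x
        rw [Finset.sum_comm]
        exact Finset.sum_congr rfl fun y _ => h2 x y
      simp only [h3]
      rw [Finset.sum_comm]
      simp
    rw [Finset.sum_comm]
    have h4 : ∀ x', ∑ a, ∑ y', ∑ x, ∑ y, star (U x a) * star (V y b) * M (x, y) (x', y') *
        (U x' a * V y' b) = ∑ y', ∑ y, star (V y b) * M (x', y) (x', y') * V y' b := by
      intro x'
      rw [Finset.sum_comm]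
      exact Finset.sum_congr rfl fun y' _ => this x' y'
    simp only [h4]
    rw [Finset.sum_comm]
    refine Finset.sum_congr rfl fun y' _ => ?_
    rw [Finset.sum_comm]
  have hd1 : ∑ a, d a = 1 := by
    have h1 : ∑ a, (d a : ℂ) = N.trace := by
      simp only [← hsb, Matrix.trace, diag_apply, Fintype.sum_prod_type]
    have h2 : N.trace = 1 := by
      rw [hN, mul_assoc, Matrix.trace_mul_comm, mul_assoc, hW2, mul_one, ht]
    rw [h2] at h1
    exact_mod_cast h1
  have hcl := shannon_sub (fun a b => (N (a, b) (a, b)).re) d e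
    (fun a b => by
      have := hNp.diag_nonneg (i := (a, b))
      exact (Complex.le_def.1 this).1)
    (fun a => by
      have := congrArg Complex.re (hsb a)
      simpa using this)
    (fun b => by
      have := congrArg Complex.re (hsa b)
      simpa using this) hd1
  have e1 : vN MX = ∑ a, Real.negMulLog (d a) := H28.ent_eq hX
  have e2 : vN MY = ∑ a, Real.negMulLog (e a) := H28.ent_eq hY
  rw [hent, e1, e2]
  refine hle.trans ?_
  rw [Fintype.sum_prod_type]
  exact hcl

end Vale.Agent.P356.B1
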