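import Vale.Agent.H28.P356.Defs

/-! # P356 row B2: subadditivity for disjoint sets of sites -/

namespace Vale.Agent.P356.B2

open Finset Matrix Vale.Agent.P356
open scoped ComplexOrder

variable {q L : ℕ}

/-- the statement of row B1 -/
def ProdLe : Prop := ∀ {X Y : Type} [Fintype X] [DecidableEq X] [Fintype Y] [DecidableEq Y]
    (M : Matrix (X × Y) (X × Y) ℂ) (_ : M.PosSemidef) (_ : M.trace = 1),
    vN M ≤ vN (Matrix.of fun x x' => ∑ y, M (x, y) (x', y)) +
      vN (Matrix.of fun y y' => ∑ x, M (x, y) (x, y'))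

/-- the statements of row B0 -/
def RdmPos : Prop := ∀ {q L : ℕ} (Ω : Vec q L) (A : Finset (Site L)), (rdm Ω A).PosSemidef

def RdmTrace : Prop := ∀ {q L : ℕ} (Ω : Vec q L) (A : Finset (Site L)) (_ : nsq Ω = 1),
    (rdm Ω A).trace = 1

variable {A B C : Finset (Site L)}

/-- configurations of `C = A ⊔ B` from configurations of `A` and `B` -/
def E (hC : ∀ x, x ∈ C ↔ x ∈ A ∨ x ∈ B) (hAB : ∀ x, x ∈ A → x ∈ B → False) :
    ((A → Fin q) × (B → Fin q)) ≃ (C → Fin q) where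
  toFun p x := if h : x.1 ∈ A then p.1 ⟨x, h⟩ else p.2 ⟨x, ((hC x).1 x.2).resolve_left h⟩
  invFun s := (fun a => s ⟨a, (hC a).2 (Or.inl a.2)⟩, fun b => s ⟨b, (hC b).2 (Or.inr b.2)⟩)
  left_inv p := by
    rcases p with ⟨s, t⟩
    refine Prod.ext ?_ ?_
    · funext a
      simp
    · funext b
      have : (b : Site L) ∉ A := fun h => hAB _ h b.2
      simp [this]
  right_inv s := by
    funext x
    simp only []
    split_ifs <;> rfl

theorem E_swap (hC : ∀ x, x ∈ C ↔ x ∈ A ∨ x ∈ B) (hAB : ∀ x, x ∈ A → x ∈ B → False)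
    (hC' : ∀ x, x ∈ C ↔ x ∈ B ∨ x ∈ A) (hAB' : ∀ x, x ∈ B → x ∈ A → False)
    (s : A → Fin q) (t : B → Fin q) : E hC hAB (s, t) = E hC' hAB' (t, s) := by
  funext x
  simp only [E, Equiv.coe_fn_mk]
  by_cases h : x.1 ∈ A
  · have h' : x.1 ∉ B := fun h' => hAB _ h h'
    rw [dif_pos h, dif_neg h']
  · have h' : x.1 ∈ B := ((hC x).1 x.2).resolve_left h
    rw [dif_neg h, dif_pos h']

/-- configurations off `A` from configurations of `B` and off `C` -/
def F (hC : ∀ x, x ∈ C ↔ x ∈ A ∨ x ∈ B) (hAB : ∀ x, x ∈ A → x ∈ B → False) :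
    ((B → Fin q) × ({x : Site L // x ∉ C} → Fin q)) ≃ ({x : Site L // x ∉ A} → Fin q) where
  toFun p x := if h : x.1 ∈ B then p.1 ⟨x, h⟩ else
    p.2 ⟨x, fun h' => h (((hC x).1 h').resolve_left x.2)⟩
  invFun s := (fun b => s ⟨b, fun h => hAB _ h b.2⟩, fun c => s ⟨c, fun h => c.2 ((hC c).2 (Or.inl h))⟩)
  left_inv p := by
    rcases p with ⟨s, t⟩
    refine Prod.ext ?_ ?_
    · funext a
      simp
    · funext b
      have : (b : Site L) ∉ B := fun h => b.2 ((hC b).2 (Or.inr h))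
      simp [this]
  right_inv s := by
    funext x
    simp only []
    split_ifs <;> rfl

theorem glue_eq (hC : ∀ x, x ∈ C ↔ x ∈ A ∨ x ∈ B) (hAB : ∀ x, x ∈ A → x ∈ B → False)
    (s : A → Fin q) (t : B → Fin q) (r : {x : Site L // x ∉ C} → Fin q) :
    glue C (E hC hAB (s, t)) r = glue A s (F hC hAB (t, r)) := by
  funext x
  simp only [glue, E, F, Equiv.coe_fn_mk]
  by_cases hA : x ∈ A
  · have h1 : x ∈ C := (hC x).2 (Or.inl hA)
    rw [dif_pos h1, dif_pos hA, dif_pos hA]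
  · by_cases hB : x ∈ B
    · have h1 : x ∈ C := (hC x).2 (Or.inr hB)
      rw [dif_pos h1, dif_neg hA, dif_neg hA, dif_pos hB]
    · have h1 : x ∉ C := fun h => (((hC x).1 h).elim hA hB)
      rw [dif_neg h1, dif_neg hA, dif_neg hB]

theorem marg (hC : ∀ x, x ∈ C ↔ x ∈ A ∨ x ∈ B) (hAB : ∀ x, x ∈ A → x ∈ B → False)
    (Ω : Vec q L) (s s' : A → Fin q) :
    ∑ y : B → Fin q, rdm Ω C (E hC hAB (s, y)) (E hC hAB (s', y)) = rdm Ω A s s' := by
  simp only [rdm, Matrix.of_apply]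
  rw [← Fintype.sum_prod_type' (f := fun (y : B → Fin q) (r : {x : Site L // x ∉ C} → Fin q) =>
    Ω (glue C (E hC hAB (s, y)) r) * star (Ω (glue C (E hC hAB (s', y)) r)))]
  refine Fintype.sum_equiv (F hC hAB) _ _ fun p => ?_
  rw [glue_eq, glue_eq]

theorem vN_submatrix {ι κ : Type*} [Fintype ι] [DecidableEq ι] [Fintype κ] [DecidableEq κ]
    (M : Matrix ι ι ℂ) (e : κ ≃ ι) : vN (M.submatrix e e) = vN M := by
  unfold vN
  have : (M.submatrix e e).charpoly = M.charpoly := Matrix.charpoly_reindex e.symm M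
  rw [this]

theorem entropy_union_le' (hprod : ProdLe) (hpos : RdmPos) (htr : RdmTrace)
    {q L : ℕ} (Ω : Vec q L) (h : nsq Ω = 1) (A B : Finset (Site L))
    (hAB : Disjoint A B) : entropy Ω (A ∪ B) ≤ entropy Ω A + entropy Ω B := by
  classical
  have hC : ∀ x, x ∈ A ∪ B ↔ x ∈ A ∨ x ∈ B := fun x => Finset.mem_union
  have hC' : ∀ x, x ∈ A ∪ B ↔ x ∈ B ∨ x ∈ A := fun x => by rw [hC x, or_comm]
  have hd : ∀ x, x ∈ A → x ∈ B → False := fun x h1 h2 => Finset.disjoint_left.mp hAB h1 h2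
  have hd' : ∀ x, x ∈ B → x ∈ A → False := fun x h1 h2 => hd x h2 h1
  have h1 := hprod ((rdm Ω (A ∪ B)).submatrix (E hC hd) (E hC hd))
    ((hpos Ω (A ∪ B)).submatrix _) (by
      rw [← htr Ω (A ∪ B) h]
      simp only [Matrix.trace, Matrix.diag_apply, Matrix.submatrix_apply]
      exact (E hC hd).sum_comp fun x => rdm Ω (A ∪ B) x x)
  have h2 : (Matrix.of fun x x' : A → Fin q => ∑ y : B → Fin q,
      ((rdm Ω (A ∪ B)).submatrix (E hC hd) (E hC hd)) (x, y) (x', y)) = rdm Ω A := by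
    ext x x'
    simp only [Matrix.of_apply, Matrix.submatrix_apply]
    exact marg hC hd Ω x x'
  have h3 : (Matrix.of fun y y' : B → Fin q => ∑ x : A → Fin q,
      ((rdm Ω (A ∪ B)).submatrix (E hC hd) (E hC hd)) (x, y) (x, y')) = rdm Ω B := by
    ext y y'
    simp only [Matrix.of_apply, Matrix.submatrix_apply, E_swap hC hd hC' hd']
    exact marg hC' hd' Ω y y'
  rw [h2, h3, vN_submatrix] at h1
  exact h1

end Vale.Agent.P356.B2
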