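import Vale.Agent.H28.P356.Defs

/-! # P356: the entropies of a region and of its complement agree -/

namespace Vale.Agent.P356.Compl

open Finset Matrix Vale.Agent.P356 Polynomial

theorem roots_X_pow_mul (k : ℕ) (p : ℂ[X]) (hp : p ≠ 0) :
    (((X ^ k * p).roots).map fun z : ℂ => Real.negMulLog z.re).sum =
      (p.roots.map fun z : ℂ => Real.negMulLog z.re).sum := by
  rw [Polynomial.roots_mul (mul_ne_zero (pow_ne_zero _ X_ne_zero) hp), Polynomial.roots_X_pow,
    Multiset.map_add, Multiset.sum_add, Multiset.nsmul_singleton, Multiset.map_replicate,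
    Multiset.sum_replicate]
  simp

theorem vN_mul_comm {m n : Type*} [Fintype m] [DecidableEq m] [Fintype n] [DecidableEq n]
    (A : Matrix m n ℂ) (B : Matrix n m ℂ) : vN (A * B) = vN (B * A) := by
  unfold vN
  rw [← roots_X_pow_mul (Fintype.card n) _ (charpoly_monic (A * B)).ne_zero,
    ← roots_X_pow_mul (Fintype.card m) _ (charpoly_monic (B * A)).ne_zero,
    Matrix.charpoly_mul_comm']

theorem vN_transpose {m : Type*} [Fintype m] [DecidableEq m] (A : Matrix m m ℂ) :
    vN Aᵀ = vN A := by
  unfold vN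
  rw [Matrix.charpoly_transpose]

theorem vN_submatrix {m n : Type*} [Fintype m] [DecidableEq m] [Fintype n] [DecidableEq n]
    (e : n ≃ m) (A : Matrix m m ℂ) : vN (A.submatrix e e) = vN A := by
  unfold vN
  have h := charpoly_reindex e.symm A
  rw [reindex_apply] at h
  simp only [Equiv.symm_symm] at h
  rw [h]

variable {q L : ℕ}

/-- configurations of the complement -/
def ec (A : Finset (Site L)) : ((Aᶜ : Finset (Site L)) → Fin q) ≃
    ({x : Site L // x ∉ A} → Fin q) :=
  (Equiv.subtypeEquivRight (fun x => by simp)).arrowCongr (Equiv.refl _)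

/-- configurations of the complement of the complement -/
def ed (A : Finset (Site L)) : ({x : Site L // x ∉ (Aᶜ : Finset (Site L))} → Fin q) ≃
    (A → Fin q) :=
  (Equiv.subtypeEquivRight (fun x => by simp)).arrowCongr (Equiv.refl _)

theorem glue_compl (A : Finset (Site L)) (s : (Aᶜ : Finset (Site L)) → Fin q)
    (r : {x : Site L // x ∉ (Aᶜ : Finset (Site L))} → Fin q) :
    glue Aᶜ s r = glue A (ed A r) (ec A s) := by
  funext x
  unfold glue
  by_cases h : x ∈ A
  · have h' : x ∉ Aᶜ := by simpa using h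
    rw [dif_neg h', dif_pos h]
    rfl
  · have h' : x ∈ Aᶜ := by simpa using h
    rw [dif_pos h', dif_neg h]
    rfl

theorem entropy_compl (Ω : Vec q L) (A : Finset (Site L)) : entropy Ω Aᶜ = entropy Ω A := by
  set M : Matrix (A → Fin q) ({x : Site L // x ∉ A} → Fin q) ℂ :=
    Matrix.of fun s r => Ω (glue A s r) with hM
  have h1 : rdm Ω A = M * Mᴴ := by
    ext s t
    simp [rdm, M, Matrix.mul_apply]
  have h2 : rdm Ω Aᶜ = ((Mᴴ * M)ᵀ).submatrix (ec A) (ec A) := by
    ext s t
    simp only [rdm, Matrix.of_apply, submatrix_apply, transpose_apply, Matrix.mul_apply,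
      conjTranspose_apply, M]
    rw [← Equiv.sum_comp (ed (q := q) A)]
    refine Finset.sum_congr rfl fun r _ => ?_
    rw [glue_compl, glue_compl, mul_comm]
  unfold entropy
  rw [h1, h2, vN_submatrix, vN_transpose, vN_mul_comm]

theorem dist1_comm (x y : Site L) : dist1 x y = dist1 y x := by
  unfold dist1
  omega

theorem bdry_compl (A : Finset (Site L)) : bdry Aᶜ = bdry A := by
  unfold bdry
  refine Finset.card_bij (fun p _ => (p.2, p.1)) ?_ ?_ ?_
  · rintro ⟨x, y⟩ h
    simp only [mem_filter, mem_univ, true_and, mem_compl, not_not] at h ⊢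
    exact ⟨h.2.1, h.1, by rw [dist1_comm]; exact h.2.2⟩
  · rintro ⟨x, y⟩ _ ⟨x', y'⟩ _ h
    simp only [Prod.mk.injEq] at h ⊢
    exact ⟨h.2, h.1⟩
  · rintro ⟨x, y⟩ h
    simp only [mem_filter, mem_univ, true_and, mem_compl, not_not] at h
    refine ⟨(y, x), ?_, rfl⟩
    simp only [mem_filter, mem_univ, true_and, mem_compl, not_not]
    exact ⟨h.2.1, h.1, by rw [dist1_comm]; exact h.2.2⟩

end Vale.Agent.P356.Compl
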