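import Mathlib

/-!
# P356: definitions of the statement (gapped Hamiltonians on the square lattice, entanglement
entropy)
-/

namespace Vale.Agent.P356.Stmt

open Finset Matrix

/-- the sites of the `L × L` square lattice -/
abbrev Site (L : ℕ) := Fin L × Fin L

/-- the `ℓ¹` distance of two sites -/
def dist1 {L : ℕ} (x y : Site L) : ℕ :=
  Int.natAbs ((x.1 : ℤ) - (y.1 : ℤ)) + Int.natAbs ((x.2 : ℤ) - (y.2 : ℤ))

/-- configurations; they index the product basis of `⊗_{x ∈ Λ_L} ℂ^q` -/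
abbrev Conf (q L : ℕ) := Site L → Fin q

/-- configurations of the region `A` -/
abbrev ConfOn (q : ℕ) {L : ℕ} (A : Finset (Site L)) := {x : Site L // x ∈ A} → Fin q

/-- configurations of the complement of `A` -/
abbrev ConfOff (q : ℕ) {L : ℕ} (A : Finset (Site L)) := {x : Site L // x ∉ A} → Fin q

/-- restriction of a configuration to `A` -/
def restr {q L : ℕ} (A : Finset (Site L)) (s : Conf q L) : ConfOn q A := fun x => s x

/-- glue a configuration of `A` and a configuration of the complement of `A` -/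
def glue {q L : ℕ} (A : Finset (Site L)) (s : ConfOn q A) (r : ConfOff q A) : Conf q L :=
  fun x => if h : x ∈ A then s ⟨x, h⟩ else r ⟨x, h⟩

/-- squared norm of a vector -/
noncomputable def nsq {ι : Type*} [Fintype ι] (ψ : ι → ℂ) : ℝ := ∑ s, ‖ψ s‖ ^ 2

/-- the operator norm of `M` is at most `J` -/
def NormLE {ι : Type*} [Fintype ι] (M : Matrix ι ι ℂ) (J : ℝ) : Prop :=
  ∀ ψ : ι → ℂ, nsq (M.mulVec ψ) ≤ J ^ 2 * nsq ψ

/-- `M = m ⊗ 1`: `M` acts on the tensor factors in `X` and as the identity elsewhere -/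
def ActsOn {q L : ℕ} (X : Finset (Site L)) (M : Matrix (Conf q L) (Conf q L) ℂ) : Prop :=
  ∃ m : Matrix (ConfOn q X) (ConfOn q X) ℂ, ∀ s t : Conf q L,
    ((∀ y, y ∉ X → s y = t y) → M s t = m (restr X s) (restr X t)) ∧
    (¬ (∀ y, y ∉ X → s y = t y) → M s t = 0)

/-- an admissible family of interaction terms: one self-adjoint term of norm at most `J` for every
nonempty set of sites of diameter at most `R` (and `0` for the other sets) -/
structure Admissible {q L : ℕ} (R : ℕ) (J : ℝ)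
    (h : Finset (Site L) → Matrix (Conf q L) (Conf q L) ℂ) : Prop where
  herm : ∀ X, (h X).IsHermitian
  acts : ∀ X, ActsOn X (h X)
  norm : ∀ X, NormLE (h X) J
  range : ∀ X, ¬ (X.Nonempty ∧ ∀ x ∈ X, ∀ y ∈ X, dist1 x y ≤ R) → h X = 0

/-- `H` has spectral gap at least `Δ` above the simple lowest eigenvalue `E₀` with unit
eigenvector `Ω`: `H Ω = E₀ Ω` and `H - E₀ ≥ Δ (1 - |Ω⟩⟨Ω|)` -/
structure Gapped {ι : Type*} [Fintype ι] (H : Matrix ι ι ℂ) (Δ E₀ : ℝ) (Ω : ι → ℂ) : Prop where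
  unit : nsq Ω = 1
  eig : H.mulVec Ω = (E₀ : ℂ) • Ω
  gap : ∀ ψ, Δ * (nsq ψ - ‖star Ω ⬝ᵥ ψ‖ ^ 2) ≤ (star ψ ⬝ᵥ H.mulVec ψ).re - E₀ * nsq ψ

/-- the reduced density matrix `ρ_A = Tr_{Λ ∖ A} |Ω⟩⟨Ω|` -/
noncomputable def rdm {q L : ℕ} (Ω : Conf q L → ℂ) (A : Finset (Site L)) :
    Matrix (ConfOn q A) (ConfOn q A) ℂ :=
  fun s t => ∑ r : ConfOff q A, Ω (glue A s r) * star (Ω (glue A t r))

/-- `- Tr M log M`: minus the sum of `z log z` over the eigenvalues of `M` (the roots of the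
characteristic polynomial, with multiplicities; real for a density matrix) -/
noncomputable def vN {ι : Type*} [Fintype ι] [DecidableEq ι] (M : Matrix ι ι ℂ) : ℝ :=
  (M.charpoly.roots.map fun z => Real.negMulLog z.re).sum

/-- the entanglement entropy `S_Ω(A) = - Tr ρ_A log ρ_A` -/
noncomputable def entropy {q L : ℕ} (Ω : Conf q L → ℂ) (A : Finset (Site L)) : ℝ := vN (rdm Ω A)

/-- the number of edges `{x, y}`, `x ∈ A`, `y ∉ A`, `|x - y|₁ = 1` -/
noncomputable def bdry {L : ℕ} (A : Finset (Site L)) : ℕ :=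
  Set.ncard {p : Site L × Site L | p.1 ∈ A ∧ p.2 ∉ A ∧ dist1 p.1 p.2 = 1}

end Vale.Agent.P356.Stmt
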