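import Vale.Agent.H28.P356.F
import Vale.Agent.H28.P356.Compl
import Vale.Agent.H28.P356.Stmt

/-! # P356: link between the definitions of the statement and those of the proof -/

namespace Vale.Agent.P356.Bridge

open Finset Matrix Vale.Agent.P356

variable {q L : ℕ}

theorem actsOn {X : Finset (Site L)} {M : Op q L} (h : Stmt.ActsOn X M) : ActsOn X M := by
  obtain ⟨m, hm⟩ := h
  refine ⟨m, fun s t => ?_⟩
  by_cases h : ∀ y, y ∉ X → s y = t y
  · rw [if_pos h]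
    exact (hm s t).1 h
  · rw [if_neg h]
    exact (hm s t).2 h

theorem admissible {R : ℕ} {J : ℝ} {h : Finset (Site L) → Op q L} (H : Stmt.Admissible R J h) :
    Admissible R J h :=
  ⟨H.herm, fun X => actsOn (H.acts X), H.norm, H.range⟩

theorem gapped {H : Op q L} {Δ E₀ : ℝ} {Ω : Vec q L} (h : Stmt.Gapped H Δ E₀ Ω) :
    Gapped H Δ E₀ Ω := ⟨h.unit, h.eig, h.gap⟩

theorem entropy_eq (Ω : Vec q L) (A : Finset (Site L)) : Stmt.entropy Ω A = entropy Ω A := rfl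

theorem bdry_eq (A : Finset (Site L)) : Stmt.bdry A = bdry A := by
  unfold Stmt.bdry bdry
  rw [← Set.ncard_coe_finset, Finset.coe_filter]
  congr 1
  ext p
  simp only [Finset.mem_univ, true_and]
  exact Iff.rfl

theorem main (q R : ℕ) (hq : 2 ≤ q) (J Δ : ℝ) (hJ : 0 < J) (hΔ : 0 < Δ) :
    ∃ ε : ℝ, 0 < ε ∧ ∃ C : ℝ, ∀ (L : ℕ) (h : Finset (Stmt.Site L) →
      Matrix (Stmt.Conf q L) (Stmt.Conf q L) ℂ) (E₀ : ℝ) (Ω : Stmt.Conf q L → ℂ),
      Stmt.Admissible R J h → Stmt.Gapped (∑ X, h X) Δ E₀ Ω → ∀ A : Finset (Stmt.Site L),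
        Stmt.entropy Ω A ≤
          (1 - ε) * (min (#A : ℝ) (#(Aᶜ) : ℝ) * Real.log q) + C * Stmt.bdry A := by
  obtain ⟨ε, hε, C, hC⟩ := F.main q R hq J Δ hJ hΔ
  refine ⟨ε, hε, C, fun L h E₀ Ω hA hG A => ?_⟩
  have h1 := hC L h E₀ Ω (admissible hA) (gapped hG) A
  have h2 := hC L h E₀ Ω (admissible hA) (gapped hG) Aᶜ
  rw [Compl.entropy_compl, Compl.bdry_compl] at h2
  rw [entropy_eq, bdry_eq]
  rcases le_total (#A : ℝ) (#(Aᶜ) : ℝ) with h3 | h3
  · rw [min_eq_left h3]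
    exact h1
  · rw [min_eq_right h3]
    exact h2

end Vale.Agent.P356.Bridge
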