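import Vale.Agent.H28.P356.Defs

/-! # P356 row C -/

namespace Vale.Agent.P356.C

open Finset Matrix Vale.Agent.P356

variable {q L : ℕ}

/-- configurations as pairs -/
def ge (A : Finset (Site L)) :
    ((A → Fin q) × ({x : Site L // x ∉ A} → Fin q)) ≃ Conf q L where
  toFun p := glue A p.1 p.2
  invFun s := (fun x => s x, fun x => s x)
  left_inv p := by
    rcases p with ⟨s, r⟩
    refine Prod.ext ?_ ?_
    · funext x
      simp [glue]
    · funext x
      simp [glue, x.2]
  right_inv s := by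
    funext x
    simp only [glue]
    split_ifs <;> rfl

theorem sum_conf {M : Type*} [AddCommMonoid M] (A : Finset (Site L)) (F : Conf q L → M) :
    ∑ s, F s = ∑ a : A → Fin q, ∑ r : {x : Site L // x ∉ A} → Fin q, F (glue A a r) := by
  rw [← (ge A).sum_comp, Fintype.sum_prod_type]
  rfl

theorem entry {B : Finset (Site L)} {O : Op q L}
    {m : Matrix (B → Fin q) (B → Fin q) ℂ}
    (hm : ∀ s t : Conf q L, O s t = if (∀ y, y ∉ B → s y = t y) then
      m (fun x => s x) (fun x => t x) else 0)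
    (a b : B → Fin q) (r r' : {x : Site L // x ∉ B} → Fin q) :
    O (glue B a r) (glue B b r') = if r = r' then m a b else 0 := by
  rw [hm]
  have h1 : (fun x : B => glue B a r x) = a := by
    funext x; simp [glue]
  have h2 : (fun x : B => glue B b r' x) = b := by
    funext x; simp [glue]
  rw [h1, h2]
  by_cases h : r = r'
  · rw [if_pos h, if_pos]
    intro y hy
    simp [glue, hy, h]
  · rw [if_neg h, if_neg]
    intro h3
    apply h
    funext x
    have := h3 x x.2
    simpa [glue, x.2] using this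

theorem expect_le {q L : ℕ} (hq : 1 ≤ q) (Ω : Vec q L) (B : Finset (Site L)) (O : Op q L)
    (hO : ActsOn B O) (htr : O.trace = 0) {K : ℝ} (hK : 0 ≤ K) (hn : NormLE O K) :
    ‖star Ω ⬝ᵥ O.mulVec Ω‖ ≤ K * Real.sqrt ((q : ℝ) ^ #B * dev Ω B) := by
  classical
  obtain ⟨m, hm⟩ := hO
  have hent := entry hm
  let r0 : {x : Site L // x ∉ B} → Fin q := fun _ => ⟨0, hq⟩
  -- trace of m
  have htm : ∑ a, m a a = 0 := by
    have h1 : O.trace = ∑ a : B → Fin q, ∑ r : {x : Site L // x ∉ B} → Fin q, m a a := by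
      rw [Matrix.trace, sum_conf B]
      refine Finset.sum_congr rfl fun a _ => Finset.sum_congr rfl fun r _ => ?_
      rw [Matrix.diag_apply, hent, if_pos rfl]
    rw [htr] at h1
    have h2 : (0 : ℂ) = (Fintype.card ({x : Site L // x ∉ B} → Fin q) : ℂ) * ∑ a, m a a := by
      rw [h1, Finset.mul_sum]
      refine Finset.sum_congr rfl fun a _ => ?_
      rw [Finset.sum_const, Finset.card_univ, nsmul_eq_mul]
    rcases mul_eq_zero.mp h2.symm with h3 | h3
    · exfalso
      haveI : Nonempty ({x : Site L // x ∉ B} → Fin q) := ⟨r0⟩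
      exact Fintype.card_ne_zero (Nat.cast_eq_zero.mp h3)
    · exact h3
  -- columns
  have hcol : ∀ b, ∑ a, ‖m a b‖ ^ 2 ≤ K ^ 2 := by
    intro b
    have h1 := hn (Pi.single (glue B b r0) 1)
    have h2 : nsq (Pi.single (glue B b r0) (1 : ℂ) : Conf q L → ℂ) = 1 := by
      unfold nsq
      rw [Finset.sum_eq_single (glue B b r0)]
      · simp
      · intro c _ hc
        simp [Pi.single_eq_of_ne hc]
      · simp
    have h3 : nsq (O.mulVec (Pi.single (glue B b r0) 1)) = ∑ a, ‖m a b‖ ^ 2 := by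
      unfold nsq
      rw [sum_conf B]
      refine Finset.sum_congr rfl fun a _ => ?_
      rw [Finset.sum_eq_single r0]
      · rw [Matrix.mulVec_single_one]
        simp [Matrix.col, hent]
      · intro r _ hr
        rw [Matrix.mulVec_single_one]
        simp [Matrix.col, hent, hr]
      · simp
    rw [h2, h3, mul_one] at h1
    exact h1
  -- expectation
  have hexp : star Ω ⬝ᵥ O.mulVec Ω = ∑ a : B → Fin q, ∑ b : B → Fin q,
      m a b * (rdm Ω B b a - if b = a then ((q : ℂ) ^ #B)⁻¹ else 0) := by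
    have h1 : star Ω ⬝ᵥ O.mulVec Ω = ∑ a : B → Fin q, ∑ b : B → Fin q, m a b * rdm Ω B b a := by
      simp only [dotProduct, mulVec]
      rw [sum_conf B]
      refine Finset.sum_congr rfl fun a _ => ?_
      have h4 : ∀ r : {x : Site L // x ∉ B} → Fin q,
          star Ω (glue B a r) * ∑ t, O (glue B a r) t * Ω t
            = ∑ b : B → Fin q, m a b * (Ω (glue B b r) * star (Ω (glue B a r))) := by
        intro r
        rw [sum_conf B, Finset.mul_sum]
        refine Finset.sum_congr rfl fun b _ => ?_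
        rw [Finset.sum_eq_single r]
        · rw [hent, if_pos rfl, Pi.star_apply]
          ring
        · intro r' _ hr'
          rw [hent, if_neg (Ne.symm hr'), zero_mul]
        · simp
      simp only [h4]
      rw [Finset.sum_comm]
      refine Finset.sum_congr rfl fun b _ => ?_
      rw [← Finset.mul_sum]
      rfl
    have h5 : ∑ a : B → Fin q, ∑ b : B → Fin q, m a b * (if b = a then ((q : ℂ) ^ #B)⁻¹ else 0)
        = 0 := by
      have : ∀ a : B → Fin q, ∑ b : B → Fin q, m a b * (if b = a then ((q : ℂ) ^ #B)⁻¹ else 0)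
          = m a a * ((q : ℂ) ^ #B)⁻¹ := by
        intro a
        rw [Finset.sum_eq_single a]
        · simp
        · intro b _ hb
          simp [hb]
        · simp
      simp only [this]
      rw [← Finset.sum_mul, htm, zero_mul]
    simp only [mul_sub, Finset.sum_sub_distrib]
    rw [h1, h5, sub_zero]
  rw [hexp]
  -- Cauchy–Schwarz
  have hcs : ‖∑ a : B → Fin q, ∑ b : B → Fin q,
      m a b * (rdm Ω B b a - if b = a then ((q : ℂ) ^ #B)⁻¹ else 0)‖
      ≤ Real.sqrt (∑ p : (B → Fin q) × (B → Fin q), ‖m p.1 p.2‖ ^ 2) *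
        Real.sqrt (∑ p : (B → Fin q) × (B → Fin q),
          ‖rdm Ω B p.2 p.1 - if p.2 = p.1 then ((q : ℂ) ^ #B)⁻¹ else 0‖ ^ 2) := by
    rw [← Fintype.sum_prod_type' (f := fun a b =>
      m a b * (rdm Ω B b a - if b = a then ((q : ℂ) ^ #B)⁻¹ else 0))]
    refine (norm_sum_le _ _).trans ?_
    simp only [norm_mul]
    exact Real.sum_mul_le_sqrt_mul_sqrt _ _ _
  refine hcs.trans ?_
  have hS1 : ∑ p : (B → Fin q) × (B → Fin q), ‖m p.1 p.2‖ ^ 2 ≤ (q : ℝ) ^ #B * K ^ 2 := by
    rw [Fintype.sum_prod_type_right]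
    refine (Finset.sum_le_sum fun b _ => hcol b).trans ?_
    rw [Finset.sum_const, Finset.card_univ, nsmul_eq_mul]
    simp
  have hS2 : ∑ p : (B → Fin q) × (B → Fin q),
          ‖rdm Ω B p.2 p.1 - if p.2 = p.1 then ((q : ℂ) ^ #B)⁻¹ else 0‖ ^ 2 = dev Ω B := by
    rw [Fintype.sum_prod_type_right]
    rfl
  rw [hS2, Real.sqrt_mul (by positivity), ← mul_assoc]
  refine mul_le_mul_of_nonneg_right ?_ (Real.sqrt_nonneg _)
  calc Real.sqrt (∑ p : (B → Fin q) × (B → Fin q), ‖m p.1 p.2‖ ^ 2)
      ≤ Real.sqrt ((q : ℝ) ^ #B * K ^ 2) := Real.sqrt_le_sqrt hS1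
    _ = K * Real.sqrt ((q : ℝ) ^ #B) := by
        rw [Real.sqrt_mul (by positivity), Real.sqrt_sq hK, mul_comm]

end Vale.Agent.P356.C
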