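import Vale.Agent.H28.P356.Defs

/-! # P356 row D: reduced states of gapped ground states are not maximally mixed -/

namespace Vale.Agent.P356.D

open Finset Matrix Vale.Agent.P356

variable {q L : ℕ}

/-- the statement of row C -/
def ExpectLe : Prop := ∀ {q L : ℕ} (_ : 1 ≤ q) (Ω : Vec q L) (B : Finset (Site L)) (O : Op q L)
    (_ : ActsOn B O) (_ : O.trace = 0) {K : ℝ} (_ : 0 ≤ K) (_ : NormLE O K),
    ‖star Ω ⬝ᵥ O.mulVec Ω‖ ≤ K * Real.sqrt ((q : ℝ) ^ #B * dev Ω B)

theorem actsOn_mono {X B : Finset (Site L)} (hX : X ⊆ B) {M : Op q L} (h : ActsOn X M) :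
    ActsOn B M := by
  classical
  obtain ⟨m, hm⟩ := h
  refine ⟨Matrix.of fun s t => if (∀ y : B, (y : Site L) ∉ X → s y = t y) then
    m (fun x => s ⟨x, hX x.2⟩) (fun x => t ⟨x, hX x.2⟩) else 0, fun s t => ?_⟩
  rw [hm]
  simp only [Matrix.of_apply]
  by_cases h1 : ∀ y, y ∉ B → s y = t y
  · rw [if_pos h1]
    by_cases h2 : ∀ y : B, (y : Site L) ∉ X → s y = t y
    · rw [if_pos h2, if_pos]
      intro y hy
      by_cases hyB : y ∈ B
      · exact h2 ⟨y, hyB⟩ hy
      · exact h1 y hyB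
    · rw [if_neg h2, if_neg]
      intro h3
      exact h2 fun y hy => h3 y hy
  · rw [if_neg h1, if_neg]
    intro h3
    exact h1 fun y hy => h3 y (fun h => hy (hX h))

theorem actsOn_sub {X : Finset (Site L)} {M N : Op q L} (hM : ActsOn X M) (hN : ActsOn X N) :
    ActsOn X (M - N) := by
  obtain ⟨m, hm⟩ := hM
  obtain ⟨n, hn⟩ := hN
  refine ⟨m - n, fun s t => ?_⟩
  rw [Matrix.sub_apply, hm, hn]
  split_ifs
  · rfl
  · simp

section shift

variable [NeZero q]

/-- shift of the configuration at `x` -/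
def f (x : Site L) (t : Conf q L) : Conf q L := Function.update t x (t x + 1)

/-- inverse shift -/
def g (x : Site L) (t : Conf q L) : Conf q L := Function.update t x (t x - 1)

theorem f_g (x : Site L) (t : Conf q L) : f x (g x t) = t := by
  funext y
  unfold f g
  by_cases h : y = x
  · subst h; simp
  · simp [Function.update_of_ne h]

theorem g_f (x : Site L) (t : Conf q L) : g x (f x t) = t := by
  funext y
  unfold f g
  by_cases h : y = x
  · subst h; simp
  · simp [Function.update_of_ne h]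

/-- the shift as a permutation -/
def e (x : Site L) : Conf q L ≃ Conf q L where
  toFun := f x
  invFun := g x
  left_inv := g_f x
  right_inv := f_g x

theorem f_same (x : Site L) (t : Conf q L) : f x t x = t x + 1 := by simp [f]

theorem f_ne {x y : Site L} (h : y ≠ x) (t : Conf q L) : f x t y = t y := by
  simp [f, Function.update_of_ne h]

theorem shift_mulVec (x : Site L) (ψ : Vec q L) : (shiftOp x).mulVec ψ = ψ ∘ g x := by
  funext s
  simp only [Matrix.mulVec, dotProduct, shiftOp, Matrix.of_apply, Function.comp]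
  rw [Finset.sum_eq_single (g x s)]
  · have : s = Function.update (g x s) x (g x s x + 1) := (f_g x s).symm
    rw [if_pos this, one_mul]
  · intro t _ ht
    rw [if_neg, zero_mul]
    intro h
    apply ht
    have : s = f x t := h
    rw [this, g_f]
  · intro h; exact absurd (Finset.mem_univ _) h

theorem nsq_comp_g (x : Site L) (ψ : Vec q L) : nsq (ψ ∘ g x) = nsq ψ :=
  Equiv.sum_comp (e (q := q) x).symm (fun s => ‖ψ s‖ ^ 2)

theorem nsq_comp_f (x : Site L) (ψ : Vec q L) : nsq (ψ ∘ f x) = nsq ψ :=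
  Equiv.sum_comp (e (q := q) x) (fun s => ‖ψ s‖ ^ 2)

theorem submatrix_mulVec (x : Site L) (M : Op q L) (ψ : Vec q L) :
    (M.submatrix (f x) (f x)).mulVec ψ = (M.mulVec (ψ ∘ g x)) ∘ f x := by
  funext s
  simp only [Matrix.mulVec, dotProduct, Matrix.submatrix_apply, Function.comp]
  rw [← Equiv.sum_comp (e (q := q) x) (fun t => M (f x s) t * ψ (g x t))]
  refine Finset.sum_congr rfl fun t _ => ?_
  show _ = M (f x s) (f x t) * ψ (g x (f x t))
  rw [g_f]

theorem inner_submatrix (x : Site L) (M : Op q L) (ψ : Vec q L) :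
    star (ψ ∘ g x) ⬝ᵥ M.mulVec (ψ ∘ g x) = star ψ ⬝ᵥ (M.submatrix (f x) (f x)).mulVec ψ := by
  rw [submatrix_mulVec]
  simp only [dotProduct, Function.comp, Pi.star_apply]
  rw [← Equiv.sum_comp (e (q := q) x) (fun t => star (ψ (g x t)) * (M.mulVec (ψ ∘ g x)) t)]
  refine Finset.sum_congr rfl fun t _ => ?_
  show star (ψ (g x (f x t))) * _ = _
  rw [g_f]
  rfl

theorem submatrix_eq {x : Site L} {X : Finset (Site L)} (hx : x ∉ X) {M : Op q L}
    (hM : ActsOn X M) : M.submatrix (f x) (f x) = M := by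
  obtain ⟨m, hm⟩ := hM
  ext s t
  rw [Matrix.submatrix_apply, hm, hm]
  have h1 : (∀ y, y ∉ X → f x s y = f x t y) ↔ (∀ y, y ∉ X → s y = t y) := by
    refine forall_congr' fun y => forall_congr' fun hy => ?_
    by_cases hyx : y = x
    · subst hyx
      rw [f_same, f_same]
      exact add_left_inj 1
    · rw [f_ne hyx, f_ne hyx]
  have h2 : ∀ u : Conf q L, (fun y : X => f x u y) = fun y : X => u y := by
    intro u
    funext y
    exact f_ne (fun h => hx (by rw [← h]; exact y.2)) u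
  simp only [h1, h2]

theorem actsOn_submatrix {x : Site L} {X : Finset (Site L)} (hx : x ∈ X) {M : Op q L}
    (hM : ActsOn X M) : ActsOn X (M.submatrix (f x) (f x)) := by
  obtain ⟨m, hm⟩ := hM
  refine ⟨Matrix.of fun s t => m (Function.update s ⟨x, hx⟩ (s ⟨x, hx⟩ + 1))
    (Function.update t ⟨x, hx⟩ (t ⟨x, hx⟩ + 1)), fun s t => ?_⟩
  rw [Matrix.submatrix_apply, hm]
  have h1 : (∀ y, y ∉ X → f x s y = f x t y) ↔ (∀ y, y ∉ X → s y = t y) := by
    refine forall_congr' fun y => forall_congr' fun hy => ?_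
    have hyx : y ≠ x := fun h => hy (h ▸ hx)
    rw [f_ne hyx, f_ne hyx]
  have h2 : ∀ u : Conf q L, (fun y : X => f x u y) =
      Function.update (fun y : X => u y) ⟨x, hx⟩ (u x + 1) := by
    intro u
    funext y
    by_cases hy : y = ⟨x, hx⟩
    · subst hy
      simp [f]
    · rw [Function.update_of_ne hy]
      exact f_ne (fun h => hy (Subtype.ext h)) u
  simp only [h1, h2, Matrix.of_apply]

theorem trace_submatrix (x : Site L) (M : Op q L) :
    (M.submatrix (f x) (f x)).trace = M.trace := by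
  simp only [Matrix.trace, Matrix.diag_apply, Matrix.submatrix_apply]
  exact Equiv.sum_comp (e (q := q) x) (fun s => M s s)

theorem nsq_sub_le {ι : Type*} [Fintype ι] (a b : ι → ℂ) :
    nsq (a - b) ≤ 2 * nsq a + 2 * nsq b := by
  unfold nsq
  rw [Finset.mul_sum, Finset.mul_sum, ← Finset.sum_add_distrib]
  refine Finset.sum_le_sum fun i _ => ?_
  have h1 : ‖a i - b i‖ ≤ ‖a i‖ + ‖b i‖ := norm_sub_le _ _
  have h2 : ‖a i - b i‖ ^ 2 ≤ (‖a i‖ + ‖b i‖) ^ 2 := pow_le_pow_left₀ (norm_nonneg _) h1 2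
  rw [Pi.sub_apply]
  nlinarith [sq_nonneg (‖a i‖ - ‖b i‖)]

theorem normLE_diff (x : Site L) {M : Op q L} {J : ℝ} (hM : NormLE M J) :
    NormLE (M.submatrix (f x) (f x) - M) (2 * J) := by
  intro ψ
  rw [Matrix.sub_mulVec]
  refine (nsq_sub_le _ _).trans ?_
  rw [submatrix_mulVec, nsq_comp_f]
  have h1 := hM (ψ ∘ g x)
  rw [nsq_comp_g] at h1
  have h2 := hM ψ
  nlinarith

theorem shift_actsOn {x : Site L} {B : Finset (Site L)} (hx : x ∈ B) :
    ActsOn B (shiftOp (q := q) x) := by
  classical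
  refine ⟨Matrix.of fun s t => if s = Function.update t ⟨x, hx⟩ (t ⟨x, hx⟩ + 1) then 1 else 0,
    fun s t => ?_⟩
  simp only [shiftOp, Matrix.of_apply]
  by_cases h : s = Function.update t x (t x + 1)
  · have h1 : ∀ y, y ∉ B → s y = t y := by
      intro y hy
      rw [h, Function.update_of_ne (fun h' => hy (by rw [h']; exact hx))]
    have h2 : (fun y : B => s y) =
        Function.update (fun y : B => t y) ⟨x, hx⟩ (t x + 1) := by
      funext y
      by_cases hy : y = ⟨x, hx⟩
      · subst hy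
        simp [h]
      · rw [Function.update_of_ne hy, h, Function.update_of_ne]
        exact fun h' => hy (Subtype.ext h')
    rw [if_pos h, if_pos h1, if_pos h2]
  · rw [if_neg h]
    by_cases h1 : ∀ y, y ∉ B → s y = t y
    · rw [if_pos h1, if_neg]
      intro h2
      apply h
      funext y
      by_cases hyB : y ∈ B
      · have := congrFun h2 ⟨y, hyB⟩
        simp only at this
        rw [this]
        by_cases hy : y = x
        · subst hy; simp
        · rw [Function.update_of_ne hy, Function.update_of_ne]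
          intro h'
          exact hy (congrArg Subtype.val h')
      · rw [h1 y hyB, Function.update_of_ne]
        exact fun h' => hyB (h' ▸ hx)
    · rw [if_neg h1]

theorem shift_normLE (x : Site L) : NormLE (shiftOp (q := q) x) 1 := by
  intro ψ
  rw [shift_mulVec, nsq_comp_g]
  simp

end shift

theorem shift_trace (hq : 2 ≤ q) [NeZero q] (x : Site L) : (shiftOp (q := q) x).trace = 0 := by
  simp only [Matrix.trace, Matrix.diag_apply, shiftOp, Matrix.of_apply]
  refine Finset.sum_eq_zero fun s _ => ?_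
  rw [if_neg]
  intro h
  have h1 := congrFun h x
  rw [Function.update_self] at h1
  have h2 : (1 : Fin q) = 0 := by
    have : s x + 0 = s x + 1 := by rw [add_zero]; exact h1
    exact (add_left_cancel this).symm
  have h3 : (1 : Fin q) ≠ 0 := by
    obtain ⟨k, rfl⟩ : ∃ k, q = k + 2 := ⟨q - 2, by omega⟩
    have h4 : (inferInstance : NeZero (k + 2)) = ‹NeZero (k + 2)› := Subsingleton.elim _ _
    intro h5
    have h6 := congrArg Fin.val h5
    simp [Fin.val_one'] at h6
  exact h3 h2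

theorem card_ball_le (R : ℕ) (x : Site L) : #(ball R x) ≤ (2 * R + 1) ^ 2 := by
  have h : #(ball R x) ≤ #(range (2 * R + 1) ×ˢ range (2 * R + 1)) := by
    refine Finset.card_le_card_of_injOn
      (fun y => ((y.1 : ℕ) + R - (x.1 : ℕ), (y.2 : ℕ) + R - (x.2 : ℕ))) ?_ ?_
    · intro y hy
      have hy' : dist1 x y ≤ R := by simpa [ball] using hy
      unfold dist1 at hy'
      simp only [coe_product, coe_range, Set.mem_prod, Set.mem_Iio]
      constructor <;> omega
    · intro y hy z hz hyz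
      have hy' : dist1 x y ≤ R := by simpa [ball] using hy
      have hz' : dist1 x z ≤ R := by simpa [ball] using hz
      unfold dist1 at hy' hz'
      simp only [Prod.mk.injEq] at hyz
      refine Prod.ext (Fin.ext ?_) (Fin.ext ?_) <;> omega
  rw [card_product, card_range] at h
  rw [sq]
  exact h

theorem star_dot_self (Ω : Vec q L) : star Ω ⬝ᵥ Ω = (nsq Ω : ℂ) := by
  unfold nsq
  simp only [dotProduct, Pi.star_apply]
  push_cast
  refine Finset.sum_congr rfl fun s _ => ?_
  rw [mul_comm]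
  exact_mod_cast Complex.mul_conj' (Ω s)

theorem dev_nonneg (Ω : Vec q L) (B : Finset (Site L)) : 0 ≤ dev Ω B := by
  unfold dev
  positivity

theorem key (hC : ExpectLe) (R : ℕ) (hq : 2 ≤ q) (J Δ : ℝ) (hJ : 0 < J)
    (h : Finset (Site L) → Op q L) (E₀ : ℝ) (Ω : Vec q L) (hA : Admissible R J h)
    (hG : Gapped (Ham h) Δ E₀ Ω) (x : Site L) :
    Δ * (1 - Real.sqrt ((q : ℝ) ^ #(ball R x) * dev Ω (ball R x)) ^ 2) ≤
      2 ^ (2 * R + 1) ^ 2 * (2 * J) * Real.sqrt ((q : ℝ) ^ #(ball R x) * dev Ω (ball R x)) ∨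
      Δ < 0 := by
  have : NeZero q := ⟨by omega⟩
  by_cases hΔ : Δ < 0
  · exact Or.inr hΔ
  left
  rw [not_lt] at hΔ
  set B := ball R x with hB
  set t := Real.sqrt ((q : ℝ) ^ #B * dev Ω B) with ht
  have ht0 : 0 ≤ t := Real.sqrt_nonneg _
  have hxB : x ∈ B := by
    rw [hB]
    unfold ball dist1
    rw [Finset.mem_filter]
    exact ⟨Finset.mem_univ _, by simp⟩
  have h1 : ‖star Ω ⬝ᵥ (shiftOp x).mulVec Ω‖ ≤ 1 * t :=
    hC (by omega) Ω B (shiftOp x) (shift_actsOn hxB) (shift_trace hq x) zero_le_one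
      (shift_normLE x)
  rw [one_mul, shift_mulVec] at h1
  have h2 := hG.gap (Ω ∘ g x)
  rw [nsq_comp_g, hG.unit, mul_one, inner_submatrix] at h2
  have h3 : star Ω ⬝ᵥ (Ham h).mulVec Ω = (E₀ : ℂ) := by
    rw [hG.eig, dotProduct_smul, star_dot_self, hG.unit]
    simp
  have h4 : star Ω ⬝ᵥ ((Ham h).submatrix (f x) (f x)).mulVec Ω =
      (E₀ : ℂ) + ∑ X : Finset (Site L), star Ω ⬝ᵥ ((h X).submatrix (f x) (f x) - h X).mulVec Ω := by
    have h5 : (Ham h).submatrix (f x) (f x) = Ham h +
        ∑ X : Finset (Site L), ((h X).submatrix (f x) (f x) - h X) := by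
      rw [Finset.sum_sub_distrib]
      unfold Ham
      rw [add_sub_cancel]
      ext s t
      simp [Matrix.sum_apply]
    rw [h5, Matrix.add_mulVec, dotProduct_add, h3, Matrix.sum_mulVec, dotProduct_sum]
  have hterm : ∀ X : Finset (Site L),
      ‖star Ω ⬝ᵥ ((h X).submatrix (f x) (f x) - h X).mulVec Ω‖ ≤
        if X ∈ B.powerset then 2 * J * t else 0 := by
    intro X
    by_cases hxX : x ∈ X
    · by_cases hXB : X ⊆ B
      · rw [if_pos (Finset.mem_powerset.2 hXB)]
        refine hC (by omega) Ω B _ (actsOn_mono hXB (actsOn_sub (actsOn_submatrix hxX (hA.acts X))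
          (hA.acts X))) ?_ (by positivity) (normLE_diff x (hA.norm X))
        rw [Matrix.trace_sub, trace_submatrix, sub_self]
      · have h0 : h X = 0 := by
          apply hA.range
          rintro ⟨_, h6⟩
          apply hXB
          intro y hy
          rw [hB]
          simpa [ball] using h6 x hxX y hy
        rw [h0]
        have : (0 : Op q L).submatrix (f x) (f x) - 0 = 0 := by
          ext s t; simp
        rw [this, Matrix.zero_mulVec, dotProduct_zero, norm_zero]
        split_ifs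
        · positivity
        · exact le_rfl
    · rw [submatrix_eq hxX (hA.acts X), sub_self, Matrix.zero_mulVec, dotProduct_zero, norm_zero]
      split_ifs
      · positivity
      · exact le_rfl
  have hsum : ‖∑ X : Finset (Site L),
      star Ω ⬝ᵥ ((h X).submatrix (f x) (f x) - h X).mulVec Ω‖ ≤
      2 ^ (2 * R + 1) ^ 2 * (2 * J) * t := by
    refine (norm_sum_le _ _).trans ((Finset.sum_le_sum fun X _ => hterm X).trans ?_)
    rw [Finset.sum_ite_mem, Finset.univ_inter, Finset.sum_const, Finset.card_powerset,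
      nsmul_eq_mul]
    push_cast
    rw [mul_assoc _ (2 * J) t]
    refine mul_le_mul_of_nonneg_right ?_ (by positivity)
    exact pow_le_pow_right₀ (by norm_num) (card_ball_le R x)
  rw [h4, Complex.add_re, Complex.ofReal_re, add_sub_cancel_left] at h2
  have h6 := (Complex.re_le_norm _).trans hsum
  have h7 : ‖star Ω ⬝ᵥ (Ω ∘ g x)‖ ^ 2 ≤ t ^ 2 := pow_le_pow_left₀ (norm_nonneg _) h1 2
  have h8 : Δ * (1 - t ^ 2) ≤ Δ * (1 - ‖star Ω ⬝ᵥ (Ω ∘ g x)‖ ^ 2) :=
    mul_le_mul_of_nonneg_left (by linarith) hΔ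
  linarith

/-! D -/
theorem dev_lower' (hC : ExpectLe) (q R : ℕ) (hq : 2 ≤ q) (J Δ : ℝ) (hJ : 0 < J) (hΔ : 0 < Δ) :
    ∃ c : ℝ, 0 < c ∧ ∀ (L : ℕ) (h : Finset (Site L) → Op q L) (E₀ : ℝ) (Ω : Vec q L),
      Admissible R J h → Gapped (Ham h) Δ E₀ Ω → ∀ x : Site L, c ≤ dev Ω (ball R x) := by
  set K : ℝ := 2 ^ (2 * R + 1) ^ 2 * (2 * J) with hK
  have hK0 : 0 < K := by positivity
  set τ : ℝ := min (1 / 2) (Δ / (2 * K)) with hτ
  have hτ0 : 0 < τ := by positivity
  have hq0 : (0 : ℝ) < (q : ℝ) ^ (2 * R + 1) ^ 2 := by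
    have : (0 : ℝ) < q := by exact_mod_cast (by omega : 0 < q)
    positivity
  refine ⟨τ ^ 2 / (q : ℝ) ^ (2 * R + 1) ^ 2, by positivity, fun L h E₀ Ω hA hG x => ?_⟩
  have h1 := (key hC R hq J Δ hJ h E₀ Ω hA hG x).resolve_right (not_lt.2 hΔ.le)
  have hd := dev_nonneg Ω (ball R x)
  have hqB : (0 : ℝ) < (q : ℝ) ^ #(ball R x) := by
    have : (0 : ℝ) < q := by exact_mod_cast (by omega : 0 < q)
    positivity
  set t := Real.sqrt ((q : ℝ) ^ #(ball R x) * dev Ω (ball R x)) with ht
  have ht0 : 0 ≤ t := Real.sqrt_nonneg _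
  have htsq : t ^ 2 = (q : ℝ) ^ #(ball R x) * dev Ω (ball R x) := Real.sq_sqrt (by positivity)
  have hτt : τ ≤ t := by
    by_cases h2 : t < 1 / 2
    · have h3 : Δ / 2 ≤ K * t := by
        have h9 : t ^ 2 ≤ 1 / 2 := by nlinarith
        have h10 : Δ * (1 / 2) ≤ Δ * (1 - t ^ 2) :=
          mul_le_mul_of_nonneg_left (by linarith) hΔ.le
        calc Δ / 2 = Δ * (1 / 2) := by ring
          _ ≤ _ := h10
          _ ≤ _ := h1
      have h4 : Δ / (2 * K) ≤ t := by
        rw [div_le_iff₀ (by positivity)]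
        linarith
      exact (min_le_right _ _).trans h4
    · exact (min_le_left _ _).trans (not_lt.1 h2)
  have h5 : τ ^ 2 ≤ (q : ℝ) ^ #(ball R x) * dev Ω (ball R x) := by
    rw [← htsq]
    exact pow_le_pow_left₀ hτ0.le hτt 2
  have h6 : (q : ℝ) ^ #(ball R x) ≤ (q : ℝ) ^ (2 * R + 1) ^ 2 :=
    pow_le_pow_right₀ (by exact_mod_cast (by omega : 1 ≤ q)) (card_ball_le R x)
  rw [div_le_iff₀ hq0]
  nlinarith

end Vale.Agent.P356.D
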