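import Mathlib

/-!
# P356: definitions (gapped Hamiltonians on the square lattice, entanglement entropy)
-/

namespace Vale.Agent.P356

open Finset Matrix

/-- the sites of the `L × L` square lattice -/
abbrev Site (L : ℕ) := Fin L × Fin L

/-- the `ℓ¹` distance of two sites -/
def dist1 {L : ℕ} (x y : Site L) : ℕ :=
  Int.natAbs ((x.1 : ℤ) - (y.1 : ℤ)) + Int.natAbs ((x.2 : ℤ) - (y.2 : ℤ))

/-- configurations; they index the product basis of `⊗_{x ∈ Λ_L} ℂ^q` -/
abbrev Conf (q L : ℕ) := Site L → Fin q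

/-- vectors of `⊗_{x ∈ Λ_L} ℂ^q` in the product basis -/
abbrev Vec (q L : ℕ) := Conf q L → ℂ

/-- operators on `⊗_{x ∈ Λ_L} ℂ^q`, as matrices in the product basis -/
abbrev Op (q L : ℕ) := Matrix (Conf q L) (Conf q L) ℂ

/-- squared norm of a vector -/
noncomputable def nsq {ι : Type*} [Fintype ι] (ψ : ι → ℂ) : ℝ := ∑ s, ‖ψ s‖ ^ 2

/-- the operator norm of `M` is at most `J` -/
def NormLE {ι : Type*} [Fintype ι] (M : Matrix ι ι ℂ) (J : ℝ) : Prop :=
  ∀ ψ : ι → ℂ, nsq (M.mulVec ψ) ≤ J ^ 2 * nsq ψ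

/-- `M` acts on the tensor factors in `X` and as the identity elsewhere -/
def ActsOn {q L : ℕ} (X : Finset (Site L)) (M : Op q L) : Prop :=
  ∃ m : Matrix (X → Fin q) (X → Fin q) ℂ, ∀ s t : Conf q L,
    M s t = if (∀ y, y ∉ X → s y = t y) then m (fun x => s x) (fun x => t x) else 0

/-- an admissible family of interaction terms: one self-adjoint term of norm at most `J` for every
nonempty set of sites of diameter at most `R` (and `0` for the other sets) -/
structure Admissible {q L : ℕ} (R : ℕ) (J : ℝ) (h : Finset (Site L) → Op q L) : Prop where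
  herm : ∀ X, (h X).IsHermitian
  acts : ∀ X, ActsOn X (h X)
  norm : ∀ X, NormLE (h X) J
  range : ∀ X, ¬ (X.Nonempty ∧ ∀ x ∈ X, ∀ y ∈ X, dist1 x y ≤ R) → h X = 0

/-- the Hamiltonian -/
noncomputable def Ham {q L : ℕ} (h : Finset (Site L) → Op q L) : Op q L := ∑ X : Finset (Site L), h X

/-- `H` has spectral gap at least `Δ` above the simple lowest eigenvalue `E₀` with unit
eigenvector `Ω`: `H Ω = E₀ Ω` and `H - E₀ ≥ Δ (1 - |Ω⟩⟨Ω|)` -/
structure Gapped {q L : ℕ} (H : Op q L) (Δ E₀ : ℝ) (Ω : Vec q L) : Prop where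
  unit : nsq Ω = 1
  eig : H.mulVec Ω = (E₀ : ℂ) • Ω
  gap : ∀ ψ : Vec q L, Δ * (nsq ψ - ‖star Ω ⬝ᵥ ψ‖ ^ 2) ≤ (star ψ ⬝ᵥ H.mulVec ψ).re - E₀ * nsq ψ

/-- glue a configuration of `A` and a configuration of the complement of `A` -/
def glue {q L : ℕ} (A : Finset (Site L)) (s : A → Fin q) (r : {x : Site L // x ∉ A} → Fin q) :
    Conf q L :=
  fun x => if h : x ∈ A then s ⟨x, h⟩ else r ⟨x, h⟩

/-- the reduced density matrix `ρ_A = Tr_{Λ ∖ A} |Ω⟩⟨Ω|` -/
noncomputable def rdm {q L : ℕ} (Ω : Vec q L) (A : Finset (Site L)) : Matrix (A → Fin q) (A → Fin q) ℂ :=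
  Matrix.of fun s t => ∑ r : {x : Site L // x ∉ A} → Fin q, Ω (glue A s r) * star (Ω (glue A t r))

/-- `- Tr M log M`: minus the sum of `z log z` over the eigenvalues of `M` (the roots of the
characteristic polynomial, with multiplicities; real for a density matrix) -/
noncomputable def vN {ι : Type*} [Fintype ι] [DecidableEq ι] (M : Matrix ι ι ℂ) : ℝ :=
  (M.charpoly.roots.map fun z => Real.negMulLog z.re).sum

/-- the entanglement entropy `S_Ω(A) = - Tr ρ_A log ρ_A` -/
noncomputable def entropy {q L : ℕ} (Ω : Vec q L) (A : Finset (Site L)) : ℝ := vN (rdm Ω A)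

/-- the number of edges `{x, y}`, `x ∈ A`, `y ∉ A`, `|x - y|₁ = 1` -/
def bdry {L : ℕ} (A : Finset (Site L)) : ℕ :=
  #{p : Site L × Site L | p.1 ∈ A ∧ p.2 ∉ A ∧ dist1 p.1 p.2 = 1}

/-! ### auxiliary definitions for the proof -/

/-- the ball of radius `R` -/
def ball {L : ℕ} (R : ℕ) (x : Site L) : Finset (Site L) := {y | dist1 x y ≤ R}

/-- squared Hilbert–Schmidt distance of `ρ_B` from the maximally mixed state -/
noncomputable def dev {q L : ℕ} (Ω : Vec q L) (B : Finset (Site L)) : ℝ :=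
  ∑ s : B → Fin q, ∑ t : B → Fin q,
    ‖rdm Ω B s t - if s = t then ((q : ℂ) ^ #B)⁻¹ else 0‖ ^ 2

/-- the cyclic shift of the state of site `x` -/
noncomputable def shiftOp {q L : ℕ} [NeZero q] (x : Site L) : Op q L :=
  Matrix.of fun s t => if s = Function.update t x (t x + 1) then 1 else 0

end Vale.Agent.P356
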