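import Vale.Agent.H28.P356.Defs

namespace Vale.Agent.P356.E1

open Finset

theorem dist1_tri {L : ℕ} (x y z : Site L) : dist1 x y ≤ dist1 x z + dist1 y z := by
  unfold dist1; omega

theorem card_fin_near {L : ℕ} (r : ℕ) (b : Fin L) :
    #{a : Fin L | Int.natAbs ((a : ℤ) - (b : ℤ)) ≤ r} ≤ 2 * r + 1 := by
  have h : #{a : Fin L | Int.natAbs ((a : ℤ) - (b : ℤ)) ≤ r} ≤
      #(Icc ((b : ℕ) - r) ((b : ℕ) + r)) := by
    apply card_le_card_of_injOn (fun a : Fin L => (a : ℕ))
    · intro a ha
      simp only [coe_filter, mem_univ, true_and, Set.mem_ofPred_eq] at ha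
      simp only [coe_Icc, Set.mem_Icc]
      omega
    · intro a _ a' _ h
      exact Fin.ext h
  refine h.trans ?_
  rw [Nat.card_Icc]
  omega

theorem card_near {L : ℕ} (r : ℕ) (y : Site L) :
    #{x : Site L | dist1 x y ≤ r} ≤ (2 * r + 1) ^ 2 := by
  have hsub : ({x : Site L | dist1 x y ≤ r} : Finset (Site L)) ⊆
      ({a : Fin L | Int.natAbs ((a : ℤ) - (y.1 : ℤ)) ≤ r} : Finset (Fin L)) ×ˢ
      ({a : Fin L | Int.natAbs ((a : ℤ) - (y.2 : ℤ)) ≤ r} : Finset (Fin L)) := by
    intro x hx
    have hx' : dist1 x y ≤ r := (mem_filter.1 hx).2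
    unfold dist1 at hx'
    rw [mem_product, mem_filter, mem_filter]
    refine ⟨⟨mem_univ _, ?_⟩, mem_univ _, ?_⟩ <;> omega
  refine (card_le_card hsub).trans ?_
  rw [card_product, pow_two]
  exact Nat.mul_le_mul (card_fin_near r y.1) (card_fin_near r y.2)

theorem packing {L : ℕ} (R : ℕ) (A : Finset (Site L)) :
    ∃ M : Finset (Site L), (∀ x ∈ M, ball R x ⊆ A) ∧
      (∀ x ∈ M, ∀ y ∈ M, x ≠ y → Disjoint (ball R x) (ball R y)) ∧
      #{x ∈ A | ball R x ⊆ A} ≤ #M * (4 * R + 1) ^ 2 := by
  classical
  set S : Finset (Site L) := {x ∈ A | ball R x ⊆ A} with hS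
  set P : Finset (Finset (Site L)) := S.powerset.filter
    (fun M => ∀ x ∈ M, ∀ y ∈ M, x ≠ y → Disjoint (ball R x) (ball R y)) with hP
  have hne : P.Nonempty := ⟨∅, by simp [hP]⟩
  obtain ⟨M, hM, hmax⟩ := exists_max_image P card hne
  rw [hP, mem_filter, mem_powerset] at hM
  obtain ⟨hMS, hdis⟩ := hM
  refine ⟨M, ?_, hdis, ?_⟩
  · intro x hx
    have := hMS hx
    rw [hS, mem_filter] at this
    exact this.2
  · have hcov : S ⊆ M.biUnion (fun y => ({x : Site L | dist1 x y ≤ 2 * R} : Finset (Site L))) := by
      intro x hx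
      rw [mem_biUnion]
      by_contra hcon
      push Not at hcon
      have hfar : ∀ y ∈ M, Disjoint (ball R x) (ball R y) := by
        intro y hy
        have h1 := hcon y hy
        simp only [mem_filter, mem_univ, true_and, not_le] at h1
        rw [disjoint_left]
        intro z hz hz'
        simp only [ball, mem_filter, mem_univ, true_and] at hz hz'
        have := dist1_tri x y z
        omega
      have hxM : x ∉ M := by
        intro hxM
        have := hcon x hxM
        simp only [mem_filter, mem_univ, true_and, not_le] at this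
        have h0 : dist1 x x = 0 := by unfold dist1; simp
        omega
      have hins : insert x M ∈ P := by
        rw [hP, mem_filter, mem_powerset]
        refine ⟨insert_subset hx hMS, ?_⟩
        intro a ha b hb hab
        rw [mem_insert] at ha hb
        rcases ha with rfl | ha <;> rcases hb with rfl | hb
        · exact absurd rfl hab
        · exact hfar b hb
        · exact (hfar a ha).symm
        · exact hdis a ha b hb hab
      have := hmax _ hins
      rw [card_insert_of_notMem hxM] at this
      omega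
    calc #S ≤ #(M.biUnion (fun y => ({x : Site L | dist1 x y ≤ 2 * R} : Finset (Site L)))) :=
          card_le_card hcov
      _ ≤ #M * (4 * R + 1) ^ 2 := by
          apply card_biUnion_le_card_mul
          intro y _
          have := card_near (L := L) (2 * R) y
          rwa [show 2 * (2 * R) + 1 = 4 * R + 1 by ring] at this

end Vale.Agent.P356.E1
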