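import Vale.Agent.H28.P356.E1

namespace Vale.Agent.P356.E2

open Finset

theorem step {L : ℕ} (x z : Site L) (h : dist1 x z ≠ 0) :
    ∃ x' : Site L, dist1 x x' = 1 ∧ dist1 x' z + 1 = dist1 x z := by
  obtain ⟨⟨a, ha⟩, ⟨b, hb⟩⟩ := x
  obtain ⟨⟨c, hc⟩, ⟨d, hd⟩⟩ := z
  simp only [dist1] at h ⊢
  rcases lt_trichotomy a c with h1 | h1 | h1
  · refine ⟨(⟨a + 1, by omega⟩, ⟨b, hb⟩), ?_, ?_⟩
    · simp
    · simp only; push_cast; omega
  · rcases lt_trichotomy b d with h2 | h2 | h2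
    · refine ⟨(⟨a, ha⟩, ⟨b + 1, by omega⟩), ?_, ?_⟩
      · simp
      · simp only; push_cast; omega
    · exfalso
      apply h
      omega
    · refine ⟨(⟨a, ha⟩, ⟨b - 1, by omega⟩), ?_, ?_⟩
      · simp only; omega
      · simp only; omega
  · refine ⟨(⟨a - 1, by omega⟩, ⟨b, hb⟩), ?_, ?_⟩
    · simp only; omega
    · simp only; omega

theorem path {L : ℕ} (A : Finset (Site L)) : ∀ (k : ℕ) (x z : Site L), x ∈ A → z ∉ A →
    dist1 x z = k → ∃ u v : Site L, u ∈ A ∧ v ∉ A ∧ dist1 u v = 1 ∧ dist1 x u ≤ k := by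
  intro k
  induction k with
  | zero =>
    intro x z hx hz h
    exfalso
    apply hz
    have : x = z := by
      obtain ⟨⟨a, ha⟩, ⟨b, hb⟩⟩ := x
      obtain ⟨⟨c, hc⟩, ⟨d, hd⟩⟩ := z
      simp only [dist1] at h
      have h1 : a = c := by omega
      have h2 : b = d := by omega
      subst h1 h2
      rfl
    rwa [this] at hx
  | succ k ih =>
    intro x z hx hz h
    obtain ⟨x', h1, h2⟩ := step x z (by omega)
    by_cases hx' : x' ∈ A
    · obtain ⟨u, v, hu, hv, huv, hxu⟩ := ih x' z hx' hz (by omega)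
      refine ⟨u, v, hu, hv, huv, ?_⟩
      unfold dist1 at *
      omega
    · refine ⟨x, x', hx, hx', h1, ?_⟩
      unfold dist1; simp

theorem bdry_count {L : ℕ} (R : ℕ) (A : Finset (Site L)) :
    #{x ∈ A | ¬ ball R x ⊆ A} ≤ (2 * R + 1) ^ 2 * bdry A := by
  classical
  set E : Finset (Site L × Site L) :=
    {p : Site L × Site L | p.1 ∈ A ∧ p.2 ∉ A ∧ dist1 p.1 p.2 = 1} with hE
  have hcov : ({x ∈ A | ¬ ball R x ⊆ A} : Finset (Site L)) ⊆
      E.biUnion (fun p => ({x : Site L | dist1 x p.1 ≤ R} : Finset (Site L))) := by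
    intro x hx
    rw [mem_filter, not_subset] at hx
    obtain ⟨hxA, z, hz, hzA⟩ := hx
    simp only [ball, mem_filter, mem_univ, true_and] at hz
    obtain ⟨u, v, hu, hv, huv, hxu⟩ := path A _ x z hxA hzA rfl
    rw [mem_biUnion]
    refine ⟨(u, v), ?_, ?_⟩
    · rw [hE, mem_filter]
      exact ⟨mem_univ _, hu, hv, huv⟩
    · simp only [mem_filter, mem_univ, true_and]
      omega
  calc #{x ∈ A | ¬ ball R x ⊆ A}
      ≤ #(E.biUnion (fun p => ({x : Site L | dist1 x p.1 ≤ R} : Finset (Site L)))) :=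
        card_le_card hcov
    _ ≤ #E * (2 * R + 1) ^ 2 := by
        apply card_biUnion_le_card_mul
        intro p _
        exact E1.card_near R p.1
    _ = (2 * R + 1) ^ 2 * bdry A := by rw [mul_comm]; rfl

end Vale.Agent.P356.E2
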