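import Vale.Agent.H28.P356.Rows

/-! # P356 row F: assembly -/

namespace Vale.Agent.P356.F

open Finset Matrix
open scoped ComplexOrder
open Vale.Agent.P356

theorem dev_nonneg' {q L : ℕ} (Ω : Vec q L) (B : Finset (Site L)) : 0 ≤ dev Ω B :=
  Finset.sum_nonneg fun _ _ => Finset.sum_nonneg fun _ _ => by positivity

theorem entropy_le {q L : ℕ} (hq : 2 ≤ q) (Ω : Vec q L) (h : nsq Ω = 1) (B : Finset (Site L)) :
    entropy Ω B ≤ #B * Real.log q - dev Ω B / 2 := by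
  have : Nonempty (Fin q) := ⟨⟨0, by omega⟩⟩
  have h1 := vN_le (rdm Ω B) (rdm_posSemidef Ω B) (rdm_trace Ω B h)
  have hc : (Fintype.card (B → Fin q)) = q ^ #B := by simp
  rw [hc] at h1
  have h2 : Real.log ((q ^ #B : ℕ) : ℝ) = #B * Real.log q := by
    push_cast
    rw [Real.log_pow]
  rw [h2] at h1
  have h3 : (∑ s : B → Fin q, ∑ t : B → Fin q,
      ‖rdm Ω B s t - if s = t then (((q ^ #B : ℕ) : ℂ))⁻¹ else 0‖ ^ 2) = dev Ω B := by
    unfold dev
    push_cast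
    rfl
  rw [h3] at h1
  exact h1

theorem entropy_packing {q L : ℕ} (hq : 2 ≤ q) (R : ℕ) (Ω : Vec q L) (h : nsq Ω = 1) {c : ℝ}
    (hc : ∀ x : Site L, c ≤ dev Ω (ball R x)) (M : Finset (Site L)) :
    ∀ A : Finset (Site L), (∀ x ∈ M, ball R x ⊆ A) →
      (∀ x ∈ M, ∀ y ∈ M, x ≠ y → Disjoint (ball R x) (ball R y)) →
      entropy Ω A ≤ #A * Real.log q - #M * (c / 2) := by
  induction M using Finset.induction_on with
  | empty =>
    intro A _ _
    have := entropy_le hq Ω h A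
    have h2 := dev_nonneg' Ω A
    simp only [Finset.card_empty, Nat.cast_zero, zero_mul, sub_zero]
    linarith
  | insert x M hx ih =>
    intro A hA hd
    have hxA : ball R x ⊆ A := hA x (Finset.mem_insert_self x M)
    have h1 := ih (A \ ball R x) (fun y hy => by
        intro z hz
        rw [Finset.mem_sdiff]
        refine ⟨hA y (Finset.mem_insert_of_mem hy) hz, fun hz2 => ?_⟩
        have hne : x ≠ y := fun e => hx (e ▸ hy)
        exact (Finset.disjoint_left.mp (hd x (Finset.mem_insert_self x M) y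
          (Finset.mem_insert_of_mem hy) hne)) hz2 hz)
      (fun y hy z hz hyz => hd y (Finset.mem_insert_of_mem hy) z (Finset.mem_insert_of_mem hz) hyz)
    have h2 := entropy_union_le Ω h (A \ ball R x) (ball R x) Finset.sdiff_disjoint
    rw [Finset.sdiff_union_of_subset hxA] at h2
    have h3 := entropy_le hq Ω h (ball R x)
    have h4 := hc x
    have h5 : (#A : ℝ) = #(A \ ball R x) + #(ball R x) := by
      rw [← Nat.cast_add, Finset.card_sdiff_add_card_eq_card hxA]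
    rw [Finset.card_insert_of_notMem hx, h5]
    push_cast
    linarith

theorem main (q R : ℕ) (hq : 2 ≤ q) (J Δ : ℝ) (hJ : 0 < J) (hΔ : 0 < Δ) :
    ∃ ε : ℝ, 0 < ε ∧ ∃ C : ℝ, ∀ (L : ℕ) (h : Finset (Site L) → Op q L) (E₀ : ℝ) (Ω : Vec q L),
      Admissible R J h → Gapped (Ham h) Δ E₀ Ω → ∀ A : Finset (Site L),
        entropy Ω A ≤ (1 - ε) * (#A * Real.log q) + C * bdry A := by
  obtain ⟨c, hc0, hc⟩ := dev_lower q R hq J Δ hJ hΔ
  have hlog : 0 < Real.log q := Real.log_pos (by exact_mod_cast hq)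
  refine ⟨c / (2 * (4 * R + 1) ^ 2 * Real.log q), by positivity,
    c * (2 * R + 1) ^ 2 / (2 * (4 * R + 1) ^ 2), ?_⟩
  intro L h E₀ Ω hadm hgap A
  obtain ⟨M, hM1, hM2, hM3⟩ := packing R A
  have h1 := entropy_packing hq R Ω hgap.unit (hc L h E₀ Ω hadm hgap) M A hM1 hM2
  have h2 := bdry_count R A
  have h3 : #{x ∈ A | ball R x ⊆ A} + #{x ∈ A | ¬ ball R x ⊆ A} = #A :=
    Finset.card_filter_add_card_filter_not _
  have h3' : (#{x ∈ A | ball R x ⊆ A} : ℝ) + #{x ∈ A | ¬ ball R x ⊆ A} = #A := by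
    exact_mod_cast h3
  have hM3' : (#{x ∈ A | ball R x ⊆ A} : ℝ) ≤ #M * (4 * R + 1) ^ 2 := by
    exact_mod_cast hM3
  have h2' : (#{x ∈ A | ¬ ball R x ⊆ A} : ℝ) ≤ (2 * R + 1) ^ 2 * bdry A := by
    exact_mod_cast h2
  have h4 : (#A : ℝ) - (2 * R + 1) ^ 2 * bdry A ≤ #M * (4 * R + 1) ^ 2 := by linarith
  have hK : (0 : ℝ) < (4 * R + 1) ^ 2 := by positivity
  have h5 : ((#A : ℝ) - (2 * R + 1) ^ 2 * bdry A) / (4 * R + 1) ^ 2 ≤ #M := by
    rw [div_le_iff₀ hK]
    exact h4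
  have h6 : ((#A : ℝ) - (2 * R + 1) ^ 2 * bdry A) / (4 * R + 1) ^ 2 * (c / 2) ≤ #M * (c / 2) :=
    mul_le_mul_of_nonneg_right h5 (by positivity)
  calc entropy Ω A ≤ #A * Real.log q - #M * (c / 2) := h1
    _ ≤ #A * Real.log q - ((#A : ℝ) - (2 * R + 1) ^ 2 * bdry A) / (4 * R + 1) ^ 2 * (c / 2) := by
        linarith
    _ = _ := by
        field_simp
        ring

end Vale.Agent.P356.F
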