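import Vale.Agent.H28.P356.A1
import Vale.Agent.H28.P356.A2
import Vale.Agent.H28.P356.B0
import Vale.Agent.H28.P356.B1
import Vale.Agent.H28.P356.B2
import Vale.Agent.H28.P356.C
import Vale.Agent.H28.P356.D
import Vale.Agent.H28.P356.E1
import Vale.Agent.H28.P356.E2

/-! # P356: rows -/

namespace Vale.Agent.P356

open Finset Matrix
open scoped ComplexOrder

/-! A1 -/
theorem negMulLog_quad {l D : ℝ} (hD : 1 ≤ D) (h0 : 0 ≤ l) (h1 : l ≤ 1) :
    Real.negMulLog l ≤ l * Real.log D - (l - 1 / D) - (l - 1 / D) ^ 2 / 2 := by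
  exact A1.negMulLog_quad hD h0 h1

/-! A2 (from A1; `Σ_i (λ_i - 1/D)^2 = ‖M - 1/D‖²_HS`, spectral theorem: `H28.spectral'`) -/
theorem vN_le {ι : Type*} [Fintype ι] [DecidableEq ι] [Nonempty ι] (M : Matrix ι ι ℂ)
    (hM : M.PosSemidef) (ht : M.trace = 1) :
    vN M ≤ Real.log (Fintype.card ι) -
      (∑ s, ∑ t, ‖M s t - if s = t then ((Fintype.card ι : ℂ))⁻¹ else 0‖ ^ 2) / 2 := by
  exact A2.vN_le (fun hD h0 h1 => A1.negMulLog_quad hD h0 h1) M hM ht

/-! B1: subadditivity (H28.ent_le_diag in a product eigenbasis, then Gibbs' inequality) -/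
theorem vN_prod_le {X Y : Type*} [Fintype X] [DecidableEq X] [Fintype Y] [DecidableEq Y]
    (M : Matrix (X × Y) (X × Y) ℂ) (hM : M.PosSemidef) (ht : M.trace = 1) :
    vN M ≤ vN (Matrix.of fun x x' => ∑ y, M (x, y) (x', y)) +
      vN (Matrix.of fun y y' => ∑ x, M (x, y) (x, y')) := by
  exact B1.vN_prod_le M hM ht

/-! B0: basic facts on `rdm` -/
theorem rdm_posSemidef {q L : ℕ} (Ω : Vec q L) (A : Finset (Site L)) :
    (rdm Ω A).PosSemidef := by
  exact B0.rdm_posSemidef Ω A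

theorem rdm_trace {q L : ℕ} (Ω : Vec q L) (A : Finset (Site L)) (h : nsq Ω = 1) :
    (rdm Ω A).trace = 1 := by
  exact B0.rdm_trace Ω A h

/-! B2 (from B0, B1 by reindexing `(A ∪ B → Fin q) ≃ (A → Fin q) × (B → Fin q)`) -/
theorem entropy_union_le {q L : ℕ} (Ω : Vec q L) (h : nsq Ω = 1) (A B : Finset (Site L))
    (hAB : Disjoint A B) : entropy Ω (A ∪ B) ≤ entropy Ω A + entropy Ω B := by
  exact B2.entropy_union_le' (fun M hM ht => B1.vN_prod_le M hM ht) (fun Ω A => B0.rdm_posSemidef Ω A)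
    (fun Ω A h => B0.rdm_trace Ω A h) Ω h A B hAB

/-! C: an operator of trace zero on the block `B` has a small expectation if `ρ_B` is nearly
maximally mixed -/
theorem expect_le {q L : ℕ} (hq : 1 ≤ q) (Ω : Vec q L) (B : Finset (Site L)) (O : Op q L)
    (hO : ActsOn B O) (htr : O.trace = 0) {K : ℝ} (hK : 0 ≤ K) (hn : NormLE O K) :
    ‖star Ω ⬝ᵥ O.mulVec Ω‖ ≤ K * Real.sqrt ((q : ℝ) ^ #B * dev Ω B) := by
  exact C.expect_le hq Ω B O hO htr hK hn

/-! D: the reduced states of a gapped ground state are not maximally mixed (from C with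
`O = Uᴴ H U - H = ∑_{X ∋ x} (Uᴴ h_X U - h_X)`, `U = shiftOp x`, and with `O = U`) -/
theorem dev_lower (q R : ℕ) (hq : 2 ≤ q) (J Δ : ℝ) (hJ : 0 < J) (hΔ : 0 < Δ) :
    ∃ c : ℝ, 0 < c ∧ ∀ (L : ℕ) (h : Finset (Site L) → Op q L) (E₀ : ℝ) (Ω : Vec q L),
      Admissible R J h → Gapped (Ham h) Δ E₀ Ω → ∀ x : Site L, c ≤ dev Ω (ball R x) := by
  exact D.dev_lower' (fun hq Ω B O hO htr _ hK hn => C.expect_le hq Ω B O hO htr hK hn) q R hq J Δ hJ hΔ

/-! E1: packing (maximal family of disjoint balls inside `A`) -/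
theorem packing {L : ℕ} (R : ℕ) (A : Finset (Site L)) :
    ∃ M : Finset (Site L), (∀ x ∈ M, ball R x ⊆ A) ∧
      (∀ x ∈ M, ∀ y ∈ M, x ≠ y → Disjoint (ball R x) (ball R y)) ∧
      #{x ∈ A | ball R x ⊆ A} ≤ #M * (4 * R + 1) ^ 2 := by
  exact E1.packing R A

/-! E2: points near the boundary (a monotone lattice path from `x` to a point outside `A`) -/
theorem bdry_count {L : ℕ} (R : ℕ) (A : Finset (Site L)) :
    #{x ∈ A | ¬ ball R x ⊆ A} ≤ (2 * R + 1) ^ 2 * bdry A := by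
  exact E2.bdry_count R A


end Vale.Agent.P356
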